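import Vale.Agent.P069.Dual
import Vale.Agent.P069.Statement

/-!
# The dual norm of `Y` is AMUC
-/

namespace MidTree

open Finset

/-- Evaluations at finitely many unit vectors. -/
noncomputable def evL (A : Finset (ℕ × List ℕ)) : (Y →L[ℝ] ℝ) →L[ℝ] (A → ℝ) :=
  ContinuousLinearMap.pi fun s => NormedSpace.inclusionInDoubleDual ℝ Y (sgl s.1 1)

lemma isCof_ker {X V : Type*} [NormedAddCommGroup X] [NormedSpace ℝ X] [NormedAddCommGroup V]
    [NormedSpace ℝ V] [FiniteDimensional ℝ V] (L : X →L[ℝ] V) :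
    IsCof (LinearMap.ker (L : X →ₗ[ℝ] V)) := by
  refine ⟨L.isClosed_ker, ?_⟩
  exact Module.Finite.equiv (LinearMap.quotKerEquivRange (L : X →ₗ[ℝ] V)).symm

lemma mem_ker_evL (A : Finset (ℕ × List ℕ)) (y : Y →L[ℝ] ℝ)
    (h : y ∈ LinearMap.ker (evL A : (Y →L[ℝ] ℝ) →ₗ[ℝ] (A → ℝ))) :
    ∀ s ∈ A, y (sgl s 1) = 0 := by
  intro s hs
  have h1 : evL A y = 0 := h
  have h2 := congrFun h1 ⟨s, hs⟩
  exact h2

/-- The numerical part. -/
lemma amuc_num {τ δ c t X0 : ℝ} (hτ : 0 < τ) (hτ1 : τ ≤ 1) (hτt : τ ≤ t) (hc : c = τ / 16)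
    (hδ : δ = τ ^ 2 / 512)
    (h : 1 - δ - c * δ + t * c * ((1 - δ) / 8) ≤ X0 * (1 + c ^ 2 / 2)) :
    1 + τ ^ 2 / 1024 ≤ X0 := by
  have hδ1 : δ ≤ 1 / 512 := by rw [hδ]; nlinarith
  have hc0 : 0 < c := by rw [hc]; positivity
  have h1 : τ * c * ((1 - δ) / 8) ≤ t * c * ((1 - δ) / 8) := by
    have : 0 ≤ c * ((1 - δ) / 8) := by
      have : 0 ≤ (1 - δ) / 8 := by linarith
      positivity
    nlinarith
  obtain ⟨s, hs⟩ : ∃ s, s = τ ^ 2 := ⟨_, rfl⟩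
  have hs0 : 0 < s := by rw [hs]; positivity
  have hs1 : s ≤ 1 := by rw [hs]; nlinarith
  have e1 : τ * c * ((1 - δ) / 8) = s / 128 * (1 - δ) := by rw [hc, hs]; ring
  have e2 : c ^ 2 / 2 = s / 512 := by rw [hc, hs]; ring
  have e3 : δ = s / 512 := by rw [hδ, hs]
  have hcs : c ≤ 1 / 16 := by rw [hc]; linarith
  rw [e2] at h
  rw [e1] at h1
  rw [← hs]
  have h2 : 1 + s / 256 ≤ X0 * (1 + s / 512) := by
    have h3 : c * δ ≤ 1 / 16 * (s / 512) := by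
      rw [e3]; nlinarith
    have h4 : s / 128 * (1 - δ) ≥ s / 128 - s / 128 * (s / 512) := by
      rw [e3]; nlinarith
    nlinarith
  by_contra hlt
  push Not at hlt
  have h5 : X0 * (1 + s / 512) < (1 + s / 1024) * (1 + s / 512) :=
    mul_lt_mul_of_pos_right hlt (by positivity)
  nlinarith

lemma map_res_zero (A : Finset (ℕ × List ℕ)) (y : Y →L[ℝ] ℝ) (hy : ∀ s ∈ A, y (sgl s 1) = 0)
    (f : Y) (hf : ∀ t, t ∉ A → f t = 0) : y f = 0 := by
  rw [eq_fs f A hf, map_fs]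
  refine Finset.sum_eq_zero fun t ht => ?_
  rw [hy t ht, mul_zero]

theorem amuc_pointwise (x : Y →L[ℝ] ℝ) (hx : ‖x‖ = 1) {t : ℝ} (ht : 0 < t) :
    ∃ F : Submodule ℝ (Y →L[ℝ] ℝ), IsCof F ∧ ∀ y ∈ F, ‖y‖ = 1 →
      1 + (min t 1) ^ 2 / 1024 ≤ max ‖x + t • y‖ ‖x - t • y‖ := by
  obtain ⟨τ, hτ⟩ : ∃ τ, τ = min t 1 := ⟨_, rfl⟩
  have hτ0 : 0 < τ := by rw [hτ]; exact lt_min ht one_pos
  have hτ1 : τ ≤ 1 := by rw [hτ]; exact min_le_right _ _
  have hτt : τ ≤ t := by rw [hτ]; exact min_le_left _ _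
  obtain ⟨c, hc⟩ : ∃ c, c = τ / 16 := ⟨_, rfl⟩
  obtain ⟨δ, hδ⟩ : ∃ δ, δ = τ ^ 2 / 512 := ⟨_, rfl⟩
  have hc0 : 0 < c := by rw [hc]; positivity
  have hδ0 : 0 < δ := by rw [hδ]; positivity
  obtain ⟨f, hf1, hf2⟩ := near_max x hδ0
  rw [hx] at hf2
  obtain ⟨B, hB⟩ := exists_supp f
  obtain ⟨A, hA, hBA, hAt⟩ := tails x hδ0 B
  refine ⟨_, isCof_ker (evL A), fun y hy hy1 => ?_⟩
  have hyA := mem_ker_evL A y hy
  have hfA : ∀ s, s ∉ A → f s = 0 := fun s hs => hB s fun h => hs (hBA h)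
  obtain ⟨g, hg1, hg2⟩ := near_max y hδ0
  rw [hy1] at hg2
  obtain ⟨h, hh⟩ : ∃ h : Y, h = (1 / 2 : ℝ) • res (A : Set (ℕ × List ℕ))ᶜ g := ⟨_, rfl⟩
  have hhA : ∀ s ∈ (A : Set (ℕ × List ℕ)), h s = 0 := by
    intro s hs
    rw [hh, Y.smul_coe, Pi.smul_apply,
      res_apply_not_mem _ (fun hx : s ∈ (A : Set (ℕ × List ℕ))ᶜ => hx hs), smul_zero]
  have hhn : ‖h‖ ≤ 1 := by
    rw [hh, norm_smul]
    have := res_compl_norm_le hA g
    norm_num
    linarith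
  have hyh : (1 - δ) / 2 ≤ y h := by
    have e1 : y g = y (res A g) + y (res (A : Set (ℕ × List ℕ))ᶜ g) := by
      rw [← map_add, res_add_res_compl]
    have e2 : y (res A g) = 0 := map_res_zero A y hyA _ fun s hs => res_apply_not_mem _ hs
    rw [hh, map_smul, smul_eq_mul]
    linarith
  obtain ⟨ε, h', hε, hh'A, hh'n, hyh', hnorm⟩ := merge hA (f := f) (h := h) hfA hhA
    (y : Y →ₗ[ℝ] ℝ)
  have hyh'' : y h / 4 ≤ ε * y h' := hyh'
  have hn1 : ‖h'‖ ≤ 1 := hh'n.trans hhn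
  have hn2 : ‖f + c • h'‖ ≤ 1 + c ^ 2 / 2 := by
    refine sqrt_one_add_le c ((hnorm c hc0.le).trans ?_)
    have h1 : ‖f‖ ^ 2 ≤ 1 := by nlinarith [norm_nonneg f]
    have h2 : ‖h'‖ ^ 2 ≤ 1 := by nlinarith [norm_nonneg h']
    have h3 : c ^ 2 * ‖h'‖ ^ 2 ≤ c ^ 2 * 1 := mul_le_mul_of_nonneg_left h2 (sq_nonneg _)
    linarith
  have hxh' : -δ ≤ x h' := by
    have h1 := hAt h' fun s hs => hh'A s hs
    have h2 : δ * ‖h'‖ ≤ δ * 1 := mul_le_mul_of_nonneg_left hn1 hδ0.le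
    have h3 := neg_abs_le (x h')
    linarith
  have hyf : y f = 0 := map_res_zero A y hyA f hfA
  have hval : (x + (ε * t) • y) (f + c • h') = x f + c * x h' + t * c * (ε * y h') := by
    have e : (x + (ε * t) • y) (f + c • h') = x (f + c • h') + (ε * t) * y (f + c • h') := rfl
    rw [e, map_add, map_add, map_smul, map_smul, hyf, smul_eq_mul, smul_eq_mul]
    ring
  have hlow : 1 - δ - c * δ + t * c * ((1 - δ) / 8) ≤ (x + (ε * t) • y) (f + c • h') := by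
    rw [hval]
    have h1 : c * (-δ) ≤ c * x h' := mul_le_mul_of_nonneg_left hxh' hc0.le
    have h2 : t * c * ((1 - δ) / 8) ≤ t * c * (ε * y h') :=
      mul_le_mul_of_nonneg_left (by linarith) (by positivity)
    linarith
  have hup : (x + (ε * t) • y) (f + c • h') ≤ ‖x + (ε * t) • y‖ * (1 + c ^ 2 / 2) := by
    refine (le_abs_self _).trans ((((x + (ε * t) • y).le_opNorm _)).trans ?_)
    exact mul_le_mul_of_nonneg_left hn2 (norm_nonneg _)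
  have hmain := amuc_num hτ0 hτ1 hτt hc hδ (hlow.trans hup)
  rw [← hτ]
  rcases hε with e | e
  · rw [e, one_mul] at hmain
    exact le_max_of_le_left hmain
  · have e2 : x + (ε * t) • y = x - t • y := by
      ext g
      change x g + (ε * t) * y g = x g - t * y g
      rw [e]
      ring
    rw [e2] at hmain
    exact le_max_of_le_right hmain

end MidTree
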