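import Mathlib

/-!
# The norm on the forest of countably branching trees

`T = ℕ × List ℕ`: the `n`-th tree consists of the pairs `(n, l)`; the parent of `(n, i :: l)` is
`(n, l)`.  For `g : T → ℝ`, `sig g n l` is the sum of `g` along the path from the root of the
`n`-th tree to `(n, l)`.

The norm of a finitely supported `g` is
`sqrt (∑ t, g t ^ 2 + ∑ n, (sup over l with l.length ≤ n of |sig g n l|) ^ 2)`,
realised as a supremum of Euclidean seminorms.
-/

namespace MidTree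

open Finset

/-- Sum of `g` along the path from the root of the `n`-th tree to the node `l`. -/
def sig (g : ℕ × List ℕ → ℝ) (n : ℕ) : List ℕ → ℝ
  | [] => g (n, [])
  | i :: l => g (n, i :: l) + sig g n l

@[simp] lemma sig_nil (g : ℕ × List ℕ → ℝ) (n : ℕ) : sig g n [] = g (n, []) := rfl

@[simp] lemma sig_cons (g : ℕ × List ℕ → ℝ) (n i : ℕ) (l : List ℕ) :
    sig g n (i :: l) = g (n, i :: l) + sig g n l := rfl

lemma sig_add (f g : ℕ × List ℕ → ℝ) (n : ℕ) (l : List ℕ) :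
    sig (f + g) n l = sig f n l + sig g n l := by
  induction l with
  | nil => simp
  | cons i l ih => simp only [sig_cons, ih, Pi.add_apply]; ring

lemma sig_smul (a : ℝ) (g : ℕ × List ℕ → ℝ) (n : ℕ) (l : List ℕ) :
    sig (a • g) n l = a * sig g n l := by
  induction l with
  | nil => simp
  | cons i l ih => simp only [sig_cons, ih, Pi.smul_apply, smul_eq_mul]; ring

lemma sig_neg (g : ℕ × List ℕ → ℝ) (n : ℕ) (l : List ℕ) :
    sig (-g) n l = - sig g n l := by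
  have := sig_smul (-1) g n l
  simpa using this

lemma sig_congr {f g : ℕ × List ℕ → ℝ} (n : ℕ) (h : ∀ l, f (n, l) = g (n, l)) (l : List ℕ) :
    sig f n l = sig g n l := by
  induction l with
  | nil => simp [h]
  | cons i l ih => simp [h, ih]

lemma sig_zero_of {g : ℕ × List ℕ → ℝ} (n : ℕ) (h : ∀ l, g (n, l) = 0) (l : List ℕ) :
    sig g n l = 0 := by
  induction l with
  | nil => simp [h]
  | cons i l ih => simp [h, ih]

/-- The coordinates: values at the nodes, and path sums to the chosen nodes. -/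
def crd (c : ℕ → List ℕ) (g : ℕ × List ℕ → ℝ) : (ℕ × List ℕ) ⊕ ℕ → ℝ
  | .inl t => g t
  | .inr n => sig g n (c n)

lemma crd_add (c : ℕ → List ℕ) (f g : ℕ × List ℕ → ℝ) (i : (ℕ × List ℕ) ⊕ ℕ) :
    crd c (f + g) i = crd c f i + crd c g i := by
  cases i with
  | inl t => rfl
  | inr n => exact sig_add f g n (c n)

lemma crd_smul (c : ℕ → List ℕ) (a : ℝ) (g : ℕ × List ℕ → ℝ) (i : (ℕ × List ℕ) ⊕ ℕ) :
    crd c (a • g) i = a * crd c g i := by
  cases i with
  | inl t => rfl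
  | inr n => exact sig_smul a g n (c n)

/-- The Euclidean square of the coordinates over a finite set. -/
noncomputable def qf (s : Finset ((ℕ × List ℕ) ⊕ ℕ)) (c : ℕ → List ℕ)
    (g : ℕ × List ℕ → ℝ) : ℝ := ∑ i ∈ s, (crd c g i) ^ 2

lemma qf_nonneg (s : Finset ((ℕ × List ℕ) ⊕ ℕ)) (c : ℕ → List ℕ) (g : ℕ × List ℕ → ℝ) :
    0 ≤ qf s c g := Finset.sum_nonneg fun _ _ => sq_nonneg _

lemma mink {ι : Type*} (s : Finset ι) (u v : ι → ℝ) :
    √(∑ i ∈ s, (u i + v i) ^ 2) ≤ √(∑ i ∈ s, (u i) ^ 2) + √(∑ i ∈ s, (v i) ^ 2) := by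
  have hu : 0 ≤ ∑ i ∈ s, (u i) ^ 2 := Finset.sum_nonneg fun _ _ => sq_nonneg _
  have hv : 0 ≤ ∑ i ∈ s, (v i) ^ 2 := Finset.sum_nonneg fun _ _ => sq_nonneg _
  rw [Real.sqrt_le_left (by positivity)]
  have h1 := Finset.sum_mul_sq_le_sq_mul_sq s u v
  have h2 : ∑ i ∈ s, u i * v i ≤ √(∑ i ∈ s, (u i) ^ 2) * √(∑ i ∈ s, (v i) ^ 2) := by
    rw [← Real.sqrt_mul hu]
    exact Real.le_sqrt_of_sq_le h1
  have h3 : ∑ i ∈ s, (u i + v i) ^ 2
      = ∑ i ∈ s, (u i) ^ 2 + 2 * ∑ i ∈ s, u i * v i + ∑ i ∈ s, (v i) ^ 2 := by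
    rw [Finset.mul_sum, ← Finset.sum_add_distrib, ← Finset.sum_add_distrib]
    refine Finset.sum_congr rfl fun i _ => ?_
    ring
  rw [h3, add_sq, Real.sq_sqrt hu, Real.sq_sqrt hv]
  linarith

lemma sqrt_qf_add (s : Finset ((ℕ × List ℕ) ⊕ ℕ)) (c : ℕ → List ℕ) (f g : ℕ × List ℕ → ℝ) :
    √(qf s c (f + g)) ≤ √(qf s c f) + √(qf s c g) := by
  unfold qf
  simp only [crd_add]
  exact mink s _ _

lemma qf_smul (s : Finset ((ℕ × List ℕ) ⊕ ℕ)) (c : ℕ → List ℕ) (a : ℝ) (g : ℕ × List ℕ → ℝ) :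
    qf s c (a • g) = a ^ 2 * qf s c g := by
  unfold qf
  simp only [crd_smul, mul_pow, Finset.mul_sum]

/-- Choices of one node of length at most `n` in the `n`-th tree, for each `n`. -/
def Ch : Type := {c : ℕ → List ℕ // ∀ n, (c n).length ≤ n}

instance : Nonempty Ch := ⟨⟨fun _ => [], fun _ => Nat.zero_le _⟩⟩

/-- The set over which the supremum is taken. -/
abbrev Idx : Type := Finset ((ℕ × List ℕ) ⊕ ℕ) × Ch

/-- The space of finitely supported functions on the forest. -/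
def Y : Type := (ℕ × List ℕ) →₀ ℝ

noncomputable instance : AddCommGroup Y := inferInstanceAs (AddCommGroup ((ℕ × List ℕ) →₀ ℝ))
noncomputable instance : Module ℝ Y := inferInstanceAs (Module ℝ ((ℕ × List ℕ) →₀ ℝ))

/-- The values of `g`. -/
def Y.ev (g : Y) : ℕ × List ℕ → ℝ := DFunLike.coe (F := (ℕ × List ℕ) →₀ ℝ) g

instance : CoeFun Y (fun _ => ℕ × List ℕ → ℝ) := ⟨Y.ev⟩

lemma Y.add_coe (f g : Y) : (⇑(f + g) : ℕ × List ℕ → ℝ) = ⇑f + ⇑g := by
  funext t
  exact Finsupp.add_apply f g t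

lemma Y.smul_coe (a : ℝ) (g : Y) : (⇑(a • g) : ℕ × List ℕ → ℝ) = a • ⇑g := rfl

lemma Y.neg_coe (g : Y) : (⇑(-g) : ℕ × List ℕ → ℝ) = -⇑g := rfl

lemma Y.zero_coe : (⇑(0 : Y) : ℕ × List ℕ → ℝ) = 0 := rfl

lemma Y.ext' {f g : Y} (h : ∀ t, f t = g t) : f = g := Finsupp.ext h

/-- The multiples of the unit vectors. -/
noncomputable def sgl (t : ℕ × List ℕ) (a : ℝ) : Y := Finsupp.single t a

lemma sgl_apply (t u : ℕ × List ℕ) (a : ℝ) : sgl t a u = if t = u then a else 0 :=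
  Finsupp.single_apply

lemma sig_sgl (m : ℕ) (q : List ℕ) (a : ℝ) (n : ℕ) (l : List ℕ) :
    sig (sgl (m, q) a) n l = if m = n ∧ q <:+ l then a else 0 := by
  induction l with
  | nil =>
    rw [sig_nil, sgl_apply]
    simp only [Prod.mk.injEq, List.suffix_nil]
  | cons i l ih =>
    rw [sig_cons, ih, sgl_apply]
    simp only [Prod.mk.injEq, List.suffix_cons_iff]
    by_cases hm : m = n
    · by_cases hq : q = i :: l
      · have : ¬ (q <:+ l) := by
          intro h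
          have := h.length_le
          rw [hq] at this
          simp at this
        simp [hm, hq]
        intro h
        exact absurd (hq ▸ h) this
      · simp [hm, hq]
    · simp [hm]

lemma abs_sig_sgl_le (t : ℕ × List ℕ) (a : ℝ) (n : ℕ) (l : List ℕ) :
    |sig (sgl t a) n l| ≤ if t.1 = n then |a| else 0 := by
  obtain ⟨m, q⟩ := t
  rw [sig_sgl]
  by_cases hm : m = n
  · by_cases hq : q <:+ l
    · simp [hm, hq]
    · simp [hm, hq]
  · simp [hm]

lemma qf_sgl_le (t : ℕ × List ℕ) (a : ℝ) (s : Finset ((ℕ × List ℕ) ⊕ ℕ)) (c : ℕ → List ℕ) :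
    qf s c (sgl t a) ≤ 2 * a ^ 2 := by
  have h1 : ∀ i ∈ s, (crd c (sgl t a) i) ^ 2
      ≤ (if i = .inl t then a ^ 2 else 0) + (if i = .inr t.1 then a ^ 2 else 0) := by
    intro i _
    cases i with
    | inl u =>
      simp only [crd, sgl_apply, Sum.inl.injEq, reduceCtorEq, if_false, add_zero]
      by_cases h : t = u
      · simp [h]
      · have h' : ¬ (u = t) := fun e => h e.symm
        simp [h, h']
    | inr n =>
      simp only [crd, Sum.inr.injEq, reduceCtorEq, if_false, zero_add]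
      have h := abs_sig_sgl_le t a n (c n)
      by_cases hn : t.1 = n
      · rw [if_pos hn] at h
        rw [if_pos hn.symm]
        exact sq_le_sq.mpr h
      · rw [if_neg hn] at h
        have h0 : sig (sgl t a) n (c n) = 0 := by
          have := abs_nonneg (sig (sgl t a) n (c n))
          exact abs_eq_zero.mp (le_antisymm h this)
        rw [h0, if_neg (fun e => hn e.symm)]
        norm_num
  have h2 := Finset.sum_le_sum h1
  rw [Finset.sum_add_distrib, Finset.sum_ite_eq', Finset.sum_ite_eq'] at h2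
  refine h2.trans ?_
  split_ifs <;> nlinarith [sq_nonneg a]

lemma qf_zero (s : Finset ((ℕ × List ℕ) ⊕ ℕ)) (c : ℕ → List ℕ) : qf s c (0 : Y) = 0 := by
  have h := qf_smul s c 0 (0 : Y)
  have e : (0 : ℝ) • (⇑(0 : Y) : ℕ × List ℕ → ℝ) = ⇑(0 : Y) := by
    funext t
    change (0 : ℝ) * ((0 : Y) t) = (0 : Y) t
    rw [Y.zero_coe]
    simp
  rw [e] at h
  linarith

lemma Y.induction {p : Y → Prop} (h0 : p 0) (h1 : ∀ f g : Y, p f → p g → p (f + g))
    (h2 : ∀ t a, p (sgl t a)) (g : Y) : p g :=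
  Finsupp.induction_linear (motive := p) g h0 h1 h2

lemma bdd (g : Y) : ∃ K : ℝ, ∀ p : Idx, √(qf p.1 p.2.1 g) ≤ K := by
  refine Y.induction (p := fun g : Y => ∃ K : ℝ, ∀ p : Idx, √(qf p.1 p.2.1 g) ≤ K) ?_ ?_ ?_ g
  · refine ⟨0, fun p => ?_⟩
    rw [qf_zero]
    simp
  · intro f g hf hg
    obtain ⟨K, hK⟩ := hf
    obtain ⟨L, hL⟩ := hg
    refine ⟨K + L, fun p => ?_⟩
    rw [Y.add_coe]
    exact (sqrt_qf_add p.1 p.2.1 f g).trans (add_le_add (hK p) (hL p))
  · intro t a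
    exact ⟨√(2 * a ^ 2), fun p => Real.sqrt_le_sqrt (qf_sgl_le t a p.1 p.2.1)⟩

noncomputable instance : Norm Y := ⟨fun g => ⨆ p : Idx, √(qf p.1 p.2.1 g)⟩

lemma norm_def (g : Y) : ‖g‖ = ⨆ p : Idx, √(qf p.1 p.2.1 g) := rfl

lemma bddAbove (g : Y) : BddAbove (Set.range fun p : Idx => √(qf p.1 p.2.1 g)) := by
  obtain ⟨K, hK⟩ := bdd g
  exact ⟨K, by rintro _ ⟨p, rfl⟩; exact hK p⟩

lemma sqrt_qf_le (g : Y) (s : Finset ((ℕ × List ℕ) ⊕ ℕ)) (c : Ch) : √(qf s c.1 g) ≤ ‖g‖ :=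
  le_ciSup (bddAbove g) ((s, c) : Idx)

lemma ynorm_nonneg (g : Y) : 0 ≤ ‖g‖ :=
  (Real.sqrt_nonneg _).trans (sqrt_qf_le g ∅ (Classical.arbitrary Ch))

lemma qf_le (g : Y) (s : Finset ((ℕ × List ℕ) ⊕ ℕ)) (c : Ch) : qf s c.1 g ≤ ‖g‖ ^ 2 := by
  have h := sqrt_qf_le g s c
  exact (Real.sqrt_le_left (ynorm_nonneg g)).mp h

lemma norm_sq_le {g : Y} {K : ℝ} (h : ∀ s (c : Ch), qf s c.1 g ≤ K) : ‖g‖ ^ 2 ≤ K := by
  have hK : 0 ≤ K := by
    have := h ∅ (Classical.arbitrary Ch)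
    simpa [qf] using this
  have h1 : ‖g‖ ≤ √K := by
    rw [norm_def]
    exact ciSup_le fun p => Real.sqrt_le_sqrt (h p.1 p.2)
  calc ‖g‖ ^ 2 ≤ (√K) ^ 2 := pow_le_pow_left₀ (ynorm_nonneg g) h1 2
    _ = K := Real.sq_sqrt hK

lemma core : NormedSpace.Core ℝ Y where
  norm_nonneg := ynorm_nonneg
  norm_smul a g := by
    rw [norm_def, norm_def, Real.norm_eq_abs, Real.mul_iSup_of_nonneg (abs_nonneg a)]
    congr 1
    funext p
    rw [Y.smul_coe, qf_smul, Real.sqrt_mul (sq_nonneg a), Real.sqrt_sq_eq_abs]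
  norm_triangle f g := by
    rw [norm_def]
    refine ciSup_le fun p => ?_
    rw [Y.add_coe]
    exact (sqrt_qf_add _ _ _ _).trans (add_le_add (sqrt_qf_le f _ _) (sqrt_qf_le g _ _))
  norm_eq_zero_iff g := by
    constructor
    · intro h
      refine Y.ext' fun t => ?_
      have h1 := qf_le g {.inl t} (Classical.arbitrary Ch)
      rw [h] at h1
      simp only [qf, crd, Finset.sum_singleton] at h1
      have : (g t) ^ 2 = 0 := le_antisymm (by simpa using h1) (sq_nonneg _)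
      exact pow_eq_zero_iff (two_ne_zero) |>.mp this
    · rintro rfl
      have : ‖(0 : Y)‖ ^ 2 ≤ 0 := by
        refine norm_sq_le fun s c => ?_
        rw [qf_zero]
      have h2 : ‖(0 : Y)‖ ^ 2 = 0 := le_antisymm this (sq_nonneg _)
      exact pow_eq_zero_iff (two_ne_zero) |>.mp h2

noncomputable instance : NormedAddCommGroup Y := NormedAddCommGroup.ofCore core
noncomputable instance : NormedSpace ℝ Y := NormedSpace.ofCore core

end MidTree
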