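import Vale.Agent.P069.Tails

/-!
# The dual space `X` of `Y`, and its reflexivity
-/

namespace MidTree

open Finset

/-- The coordinate as a linear map. -/
noncomputable def coordL (t : ℕ × List ℕ) : Y →ₗ[ℝ] ℝ where
  toFun g := g t
  map_add' f g := by rw [Y.add_coe]; rfl
  map_smul' a g := by rw [Y.smul_coe]; rfl

/-- The coordinate functional. -/
noncomputable def E (t : ℕ × List ℕ) : Y →L[ℝ] ℝ :=
  LinearMap.mkContinuous (coordL t) 1 fun g => by
    rw [one_mul]; exact abs_apply_le g t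

lemma E_apply (t : ℕ × List ℕ) (g : Y) : E t g = g t := rfl

lemma E_norm_le (t : ℕ × List ℕ) : ‖E t‖ ≤ 1 :=
  LinearMap.mkContinuous_norm_le _ zero_le_one _

lemma sgl_norm_sq_le (t : ℕ × List ℕ) : ‖sgl t 1‖ ^ 2 ≤ 2 := by
  refine norm_sq_le fun s c => (qf_sgl_le t 1 s c.1).trans ?_
  norm_num

lemma E_norm_ge (t : ℕ × List ℕ) : 1 / 2 ≤ ‖E t‖ := by
  have h1 := (E t).le_opNorm (sgl t 1)
  rw [E_apply, sgl_apply, if_pos rfl, norm_one] at h1
  have h2 := sgl_norm_sq_le t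
  have h3 : ‖sgl t 1‖ ≤ 2 := by nlinarith [norm_nonneg (sgl t 1)]
  nlinarith [norm_nonneg (E t), norm_nonneg (sgl t 1)]

/-- The functional giving the sum along the path to `l`. -/
noncomputable def Br (n : ℕ) : List ℕ → (Y →L[ℝ] ℝ)
  | [] => E (n, [])
  | i :: l => E (n, i :: l) + Br n l

lemma Br_apply (n : ℕ) (l : List ℕ) (g : Y) : Br n l g = sig g n l := by
  induction l with
  | nil => rfl
  | cons i l ih =>
    rw [sig_cons, ← ih]
    rfl

lemma Br_norm_le (n : ℕ) (l : List ℕ) (hl : l.length ≤ n) : ‖Br n l‖ ≤ 1 := by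
  refine ContinuousLinearMap.opNorm_le_bound _ zero_le_one fun g => ?_
  rw [Br_apply, one_mul]
  exact abs_sig_le_norm g n l hl

lemma sum_E_norm_le (F : Finset (ℕ × List ℕ)) (a : ℕ × List ℕ → ℝ) {b : ℝ} (hb : 0 ≤ b)
    (h : ∑ t ∈ F, (a t) ^ 2 ≤ b ^ 2) : ‖∑ t ∈ F, a t • E t‖ ≤ b := by
  refine ContinuousLinearMap.opNorm_le_bound _ hb fun g => ?_
  rw [_root_.sum_apply, Real.norm_eq_abs]
  simp only [smul_apply, E_apply, smul_eq_mul]
  exact abs_sum_mul_le F _ _ hb (norm_nonneg g) h (sum_sq_le g F)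

lemma coef_dual_sq_le (ξ : (Y →L[ℝ] ℝ) →L[ℝ] ℝ) (F : Finset (ℕ × List ℕ)) :
    ∑ t ∈ F, (ξ (E t)) ^ 2 ≤ ‖ξ‖ ^ 2 := by
  obtain ⟨S, hS⟩ : ∃ S, S = ∑ t ∈ F, (ξ (E t)) ^ 2 := ⟨_, rfl⟩
  have hS0 : 0 ≤ S := by rw [hS]; exact Finset.sum_nonneg fun _ _ => sq_nonneg _
  have h1 := sum_E_norm_le F (fun t => ξ (E t)) (Real.sqrt_nonneg S)
    (by rw [Real.sq_sqrt hS0, hS])
  have h2 : ξ (∑ t ∈ F, ξ (E t) • E t) = S := by
    rw [map_sum, hS]
    refine Finset.sum_congr rfl fun t _ => ?_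
    rw [map_smul, smul_eq_mul]
    ring
  have h3 := ξ.le_opNorm (∑ t ∈ F, ξ (E t) • E t)
  rw [h2, Real.norm_eq_abs, abs_of_nonneg hS0] at h3
  have h4 : S ≤ ‖ξ‖ * √S := h3.trans (mul_le_mul_of_nonneg_left h1 (norm_nonneg _))
  rw [← hS]
  rcases hS0.eq_or_lt with h0 | h0
  · rw [← h0]; positivity
  · have h5 : √S * √S ≤ ‖ξ‖ * √S := by rw [Real.mul_self_sqrt hS0]; exact h4
    have h6 : √S ≤ ‖ξ‖ := le_of_mul_le_mul_right h5 (Real.sqrt_pos.mpr h0)
    calc S = √S ^ 2 := (Real.sq_sqrt hS0).symm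
      _ ≤ ‖ξ‖ ^ 2 := pow_le_pow_left₀ (Real.sqrt_nonneg _) h6 2

/-- The restriction as a linear map. -/
noncomputable def resL (A : Set (ℕ × List ℕ)) : Y →ₗ[ℝ] Y where
  toFun := res A
  map_add' := res_add A
  map_smul' a g := res_smul A a g

/-- Restriction to a set closed under parents, as a bounded operator. -/
noncomputable def resC (A : Set (ℕ × List ℕ)) (hA : IsLow A) : Y →L[ℝ] Y :=
  LinearMap.mkContinuous (resL A) 1 fun g => by rw [one_mul]; exact res_norm_le hA g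

lemma resC_apply (A : Set (ℕ × List ℕ)) (hA : IsLow A) (g : Y) : resC A hA g = res A g := rfl

lemma comp_resC_norm_le (x : Y →L[ℝ] ℝ) (A : Set (ℕ × List ℕ)) (hA : IsLow A) :
    ‖x.comp (resC A hA)‖ ≤ ‖x‖ := by
  refine ContinuousLinearMap.opNorm_le_bound _ (norm_nonneg _) fun g => ?_
  rw [ContinuousLinearMap.comp_apply, resC_apply]
  exact (x.le_opNorm _).trans (mul_le_mul_of_nonneg_left (res_norm_le hA g) (norm_nonneg _))

/-- The lower estimate for splitting the forest in two groups of trees. -/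
lemma lower_two (N : ℕ) (g : Y) : ‖res (HN N) g‖ ^ 2 + ‖res (HN N)ᶜ g‖ ^ 2 ≤ ‖g‖ ^ 2 := by
  classical
  have key : ∀ (s1 s2 : Finset ((ℕ × List ℕ) ⊕ ℕ)) (c1 c2 : Ch),
      qf s1 c1.1 (res (HN N) g) + qf s2 c2.1 (res (HN N)ᶜ g) ≤ ‖g‖ ^ 2 := by
    intro s1 s2 c1 c2
    obtain ⟨idx, hi1, hi2⟩ : ∃ idx : (ℕ × List ℕ) ⊕ ℕ → ℕ,
        (∀ t, idx (.inl t) = t.1) ∧ (∀ n, idx (.inr n) = n) :=
      ⟨Sum.elim (fun t => t.1) (fun n => n), fun _ => rfl, fun _ => rfl⟩
    obtain ⟨c, hc⟩ : ∃ c : Ch, ∀ n, c.1 n = if n < N then c1.1 n else c2.1 n :=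
      ⟨⟨fun n => if n < N then c1.1 n else c2.1 n, fun n => by
        by_cases h : n < N
        · simp only [if_pos h]; exact c1.2 n
        · simp only [if_neg h]; exact c2.2 n⟩, fun n => rfl⟩
    have h1 : qf s1 c1.1 (res (HN N) g) = ∑ i ∈ s1.filter (fun i => idx i < N), (crd c.1 g i) ^ 2 := by
      unfold qf
      rw [Finset.sum_filter]
      refine Finset.sum_congr rfl fun i _ => ?_
      by_cases h : idx i < N
      · rw [if_pos h]
        congr 1
        cases i with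
        | inl t => exact res_apply_mem g (mem_HN.mpr (by rw [hi1] at h; exact h))
        | inr n =>
          rw [hi2] at h
          simp only [crd]
          rw [hc, if_pos h, sig_res_of_mem (low_HN N) g n _ (mem_HN.mpr h)]
      · rw [if_neg h]
        cases i with
        | inl t =>
          rw [hi1] at h
          simp only [crd]
          rw [res_apply_not_mem g fun hx => h (mem_HN.mp hx)]
          norm_num
        | inr n =>
          rw [hi2] at h
          simp only [crd]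
          rw [sig_zero_of n fun l => res_apply_not_mem _ fun hx => h (mem_HN.mp hx)]
          norm_num
    have h2 : qf s2 c2.1 (res (HN N)ᶜ g)
        = ∑ i ∈ s2.filter (fun i => ¬ idx i < N), (crd c.1 g i) ^ 2 := by
      unfold qf
      rw [Finset.sum_filter]
      refine Finset.sum_congr rfl fun i _ => ?_
      by_cases h : idx i < N
      · rw [if_neg (not_not.mpr h)]
        cases i with
        | inl t =>
          rw [hi1] at h
          simp only [crd]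
          rw [res_apply_not_mem g fun hx : t ∈ (HN N)ᶜ => hx (mem_HN.mpr h)]
          norm_num
        | inr n =>
          rw [hi2] at h
          simp only [crd]
          rw [sig_zero_of n fun l => res_apply_not_mem _
            fun hx : (n, l) ∈ (HN N)ᶜ => hx (mem_HN.mpr h)]
          norm_num
      · rw [if_pos h]
        congr 1
        cases i with
        | inl t => exact res_apply_mem g (fun hx => h (by rw [hi1]; exact mem_HN.mp hx))
        | inr n =>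
          rw [hi2] at h
          simp only [crd]
          rw [hc, if_neg h, sig_res_of_mem (low_HN_compl N) g n _ (fun hx => h (mem_HN.mp hx))]
    rw [h1, h2, ← Finset.sum_union]
    · exact qf_le g _ c
    · rw [Finset.disjoint_left]
      intro i hi hi'
      exact (Finset.mem_filter.mp hi').2 (Finset.mem_filter.mp hi).2
  have h1 : ∀ (s2 : Finset ((ℕ × List ℕ) ⊕ ℕ)) (c2 : Ch),
      ‖res (HN N) g‖ ^ 2 ≤ ‖g‖ ^ 2 - qf s2 c2.1 (res (HN N)ᶜ g) := by
    intro s2 c2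
    refine norm_sq_le fun s1 c1 => ?_
    have := key s1 s2 c1 c2
    linarith
  have h2 : ‖res (HN N)ᶜ g‖ ^ 2 ≤ ‖g‖ ^ 2 - ‖res (HN N) g‖ ^ 2 := by
    refine norm_sq_le fun s2 c2 => ?_
    have := h1 s2 c2
    linarith
  linarith

lemma two_cs (a b p q : ℝ) : a * p + b * q ≤ √(a ^ 2 + b ^ 2) * √(p ^ 2 + q ^ 2) := by
  rw [← Real.sqrt_mul (by positivity)]
  refine Real.le_sqrt_of_sq_le ?_
  nlinarith [sq_nonneg (a * q - b * p)]

lemma dual_orth (N : ℕ) {u v : Y →L[ℝ] ℝ} (hu : ∀ g, u (res (HN N) g) = u g)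
    (hv : ∀ g, v (res (HN N)ᶜ g) = v g) : ‖u + v‖ ^ 2 ≤ ‖u‖ ^ 2 + ‖v‖ ^ 2 := by
  have h : ‖u + v‖ ≤ √(‖u‖ ^ 2 + ‖v‖ ^ 2) := by
    refine ContinuousLinearMap.opNorm_le_bound _ (Real.sqrt_nonneg _) fun g => ?_
    rw [add_apply, ← hu, ← hv]
    have h1 := u.le_opNorm (res (HN N) g)
    have h2 := v.le_opNorm (res (HN N)ᶜ g)
    have h3 := norm_add_le (u (res (HN N) g)) (v (res (HN N)ᶜ g))
    have h4 := two_cs ‖u‖ ‖v‖ ‖res (HN N) g‖ ‖res (HN N)ᶜ g‖
    have h5 : √(‖res (HN N) g‖ ^ 2 + ‖res (HN N)ᶜ g‖ ^ 2) ≤ ‖g‖ := by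
      rw [← Real.sqrt_sq (norm_nonneg g)]
      exact Real.sqrt_le_sqrt (lower_two N g)
    have h6 := mul_le_mul_of_nonneg_left h5 (Real.sqrt_nonneg (‖u‖ ^ 2 + ‖v‖ ^ 2))
    linarith
  calc ‖u + v‖ ^ 2 ≤ (√(‖u‖ ^ 2 + ‖v‖ ^ 2)) ^ 2 := pow_le_pow_left₀ (norm_nonneg _) h 2
    _ = _ := Real.sq_sqrt (by positivity)

end MidTree
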