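import Vale.Agent.P069.Statement

/-!
# A space with bounded branch sums has no equivalent AUC norm
-/

namespace MidTree

open Filter Topology

variable {X : Type*} [NormedAddCommGroup X] [NormedSpace ℝ X]

lemma near_F {F : Submodule ℝ X} (hF : IsCof F) (e : ℕ → X)
    (he : ∀ ξ : X →L[ℝ] ℝ, Tendsto (fun i => ξ (e i)) atTop (𝓝 0)) {η : ℝ} (hη : 0 < η) :
    ∃ i, ∃ y ∈ F, ‖e i - y‖ < η := by
  have : IsClosed (F : Set X) := hF.1
  have : FiniteDimensional ℝ (X ⧸ F) := hF.2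
  obtain ⟨φ⟩ : Nonempty ((X ⧸ F) ≃L[ℝ] (Fin (Module.finrank ℝ (X ⧸ F)) → ℝ)) :=
    FiniteDimensional.nonempty_continuousLinearEquiv_of_finrank_eq (by simp)
  have h1 : Tendsto (fun i => φ (F.mkQL (e i))) atTop (𝓝 0) := by
    rw [tendsto_pi_nhds]
    intro j
    exact he (((ContinuousLinearMap.proj (R := ℝ)
      (φ := fun _ : Fin (Module.finrank ℝ (X ⧸ F)) => ℝ) j).comp
      (φ : (X ⧸ F) →L[ℝ] (Fin (Module.finrank ℝ (X ⧸ F)) → ℝ))).comp F.mkQL)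
  have h2 : Tendsto (fun i => F.mkQL (e i)) atTop (𝓝 0) := by
    have h3 := (φ.symm.continuous.tendsto 0).comp h1
    rw [map_zero] at h3
    refine h3.congr fun i => ?_
    exact φ.symm_apply_apply _
  have h3 : Tendsto (fun i => ‖F.mkQL (e i)‖) atTop (𝓝 0) := by
    have := h2.norm
    rwa [norm_zero] at this
  obtain ⟨i, hi⟩ := ((tendsto_order.mp h3).2 η hη).exists
  obtain ⟨m, hm1, hm2⟩ := Submodule.Quotient.norm_mk_lt (F.mkQL (e i))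
    (ε := η - ‖F.mkQL (e i)‖) (by linarith)
  refine ⟨i, e i - m, ?_, ?_⟩
  · have : Submodule.Quotient.mk (p := F) (e i - m) = 0 := by
      rw [Submodule.Quotient.mk_sub, hm1]
      exact sub_self _
    exact (Submodule.Quotient.mk_eq_zero F).mp this
  · rw [sub_sub_cancel]
    linarith

lemma auc_extract {N : Seminorm ℝ X} (h : IsAUC N) {t : ℝ} (ht : 0 < t) :
    ∃ δ : ℝ, 0 < δ ∧ ∀ x : X, N x = 1 → ∃ F : Submodule ℝ X, IsCof F ∧
      ∀ y ∈ F, N y = 1 → 1 + δ ≤ N (x + t • y) := by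
  obtain ⟨δ, hδ1, hδ2⟩ := EReal.lt_iff_exists_real_btwn.mp (h t ht)
  have hδ0 : 0 < δ := by exact_mod_cast hδ1
  refine ⟨δ, hδ0, fun x hx => ?_⟩
  have h1 : (δ : EReal) < ⨆ (F : Submodule ℝ X) (_ : IsCof F),
      ⨅ (y : X) (_ : y ∈ F ∧ N y = 1), ((N (x + t • y) - 1 : ℝ) : EReal) :=
    lt_of_lt_of_le hδ2 (iInf₂_le x hx)
  obtain ⟨F, hF⟩ := lt_iSup_iff.mp h1
  obtain ⟨hF1, hF2⟩ := lt_iSup_iff.mp hF
  refine ⟨F, hF1, fun y hy hy1 => ?_⟩
  have h2 : (δ : EReal) < ((N (x + t • y) - 1 : ℝ) : EReal) :=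
    lt_of_lt_of_le hF2 (iInf₂_le y ⟨hy, hy1⟩)
  have h3 : δ < N (x + t • y) - 1 := by exact_mod_cast h2
  linarith

lemma auc_step {N : Seminorm ℝ X} {a b δ : ℝ} (ha : 0 < a) (hb : 0 < b) (hδ : 0 < δ)
    (hab : ∀ x, a * ‖x‖ ≤ N x ∧ N x ≤ b * ‖x‖)
    (hauc : ∀ x : X, N x = 1 → ∃ F : Submodule ℝ X, IsCof F ∧
      ∀ y ∈ F, N y = 1 → 1 + δ ≤ N (x + (a / (4 * b)) • y))
    {x : X} (hx : a / 2 ≤ N x) (hx' : N x ≤ b) (e : ℕ → X) (he1 : ∀ i, 1 / 2 ≤ ‖e i‖)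
    (he2 : ∀ ξ : X →L[ℝ] ℝ, Tendsto (fun i => ξ (e i)) atTop (𝓝 0)) :
    ∃ i, (1 + δ / 2) * N x ≤ N (x + e i) := by
  obtain ⟨p, hp⟩ : ∃ p, p = N x := ⟨_, rfl⟩
  have hp0 : 0 < p := by rw [hp]; linarith
  have hu : N (p⁻¹ • x) = 1 := by
    rw [map_smul_eq_mul, Real.norm_eq_abs, abs_of_pos (inv_pos.mpr hp0), ← hp]
    exact inv_mul_cancel₀ hp0.ne'
  obtain ⟨F, hF, hF2⟩ := hauc _ hu
  obtain ⟨η, hη⟩ : ∃ η, η = min 1 δ * (a / (4 * b)) := ⟨_, rfl⟩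
  have hm0 : 0 < min 1 δ := lt_min one_pos hδ
  have hη0 : 0 < η := by rw [hη]; positivity
  have hbη : b * η = min 1 δ * (a / 4) := by rw [hη]; field_simp
  have hbη1 : b * η ≤ a / 4 := by
    rw [hbη]; nlinarith [min_le_left 1 δ]
  have hbη2 : b * η ≤ δ * (a / 4) := by
    rw [hbη]; nlinarith [min_le_right 1 δ]
  obtain ⟨i, y, hy, hiy⟩ := near_F hF e he2 hη0
  have hNd : N (e i - y) ≤ b * η := (hab _).2.trans (mul_le_mul_of_nonneg_left hiy.le hb.le)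
  have hNe : a / 2 ≤ N (e i) := by
    have h1 := (hab (e i)).1
    have h2 := he1 i
    nlinarith
  obtain ⟨q, hq⟩ : ∃ q, q = N y := ⟨_, rfl⟩
  have hq1 : a / 4 ≤ q := by
    have h1 : N (e i) ≤ N (e i - y) + N y := by
      have := map_add_le_add N (e i - y) y
      rwa [sub_add_cancel] at this
    rw [hq]; linarith
  have hq0 : 0 < q := by linarith
  have hv : N (q⁻¹ • y) = 1 := by
    rw [map_smul_eq_mul, Real.norm_eq_abs, abs_of_pos (inv_pos.mpr hq0), ← hq]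
    exact inv_mul_cancel₀ hq0.ne'
  have h1 := hF2 _ (F.smul_mem q⁻¹ hy) hv
  obtain ⟨t, ht⟩ : ∃ t, t = a / (4 * b) := ⟨_, rfl⟩
  have ht0 : 0 < t := by rw [ht]; positivity
  rw [← ht] at h1
  obtain ⟨lam, hlam⟩ : ∃ lam, lam = t * p / q := ⟨_, rfl⟩
  have hl0 : 0 < lam := by rw [hlam]; positivity
  have hl1 : lam ≤ 1 := by
    rw [hlam, div_le_one hq0]
    have h2 : t * p ≤ t * b := mul_le_mul_of_nonneg_left (by rw [hp]; exact hx') ht0.le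
    have h3 : t * b = a / 4 := by rw [ht]; field_simp
    linarith
  have e1 : p⁻¹ • x + t • (q⁻¹ • y) = (1 - lam) • (p⁻¹ • x) + lam • (p⁻¹ • (x + y)) := by
    have e2 : lam * p⁻¹ = t * q⁻¹ := by
      rw [hlam]; field_simp
    rw [smul_smul, smul_smul, smul_smul, smul_add, e2]
    rw [sub_mul, one_mul, sub_smul, e2]
    abel
  have h2 : N (p⁻¹ • x + t • (q⁻¹ • y)) ≤ (1 - lam) * 1 + lam * (p⁻¹ * N (x + y)) := by
    rw [e1]
    refine (map_add_le_add N _ _).trans ?_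
    rw [map_smul_eq_mul N (1 - lam), hu, map_smul_eq_mul N lam, map_smul_eq_mul N p⁻¹,
      Real.norm_eq_abs, Real.norm_eq_abs, Real.norm_eq_abs, abs_of_nonneg (by linarith : 0 ≤ 1 - lam),
      abs_of_pos hl0, abs_of_pos (inv_pos.mpr hp0)]
  have h3 : 1 + δ ≤ p⁻¹ * N (x + y) := by
    have h4 : lam * (1 + δ) ≤ lam * (p⁻¹ * N (x + y)) := by nlinarith
    exact le_of_mul_le_mul_left h4 hl0
  have h4 : (1 + δ) * p ≤ N (x + y) := by
    have h5 := mul_le_mul_of_nonneg_right h3 hp0.le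
    have h6 : p⁻¹ * N (x + y) * p = N (x + y) := by field_simp
    rwa [h6] at h5
  refine ⟨i, ?_⟩
  have h5 : N (x + y) ≤ N (x + e i) + N (e i - y) := by
    have h6 := map_sub_le_add N (x + e i) (e i - y)
    have h7 : x + e i - (e i - y) = x + y := by abel
    rwa [h7] at h6
  rw [← hp]
  rw [← hp] at hx
  nlinarith

end MidTree
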