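import Vale.Agent.P069.Reflexive
import Vale.Agent.P069.AMUC
import Vale.Agent.P069.NotAUC

/-!
# Assembly
-/

namespace MidTree

open Filter Topology

lemma weak_null (ξ : (Y →L[ℝ] ℝ) →L[ℝ] ℝ) (n : ℕ) (l : List ℕ) :
    Tendsto (fun i : ℕ => ξ (E (n, i :: l))) atTop (𝓝 0) := by
  have hs : Summable fun t : ℕ × List ℕ => (ξ (E t)) ^ 2 :=
    summable_of_sum_le (fun t => sq_nonneg _) (coef_dual_sq_le ξ)
  have hinj : Function.Injective fun i : ℕ => ((n, i :: l) : ℕ × List ℕ) := by
    intro i j h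
    simpa using h
  have h1 := (hs.comp_injective hinj).tendsto_atTop_zero
  have h2 : Tendsto (fun i : ℕ => √((ξ (E (n, i :: l))) ^ 2)) atTop (𝓝 0) := by
    have h3 := (Real.continuous_sqrt.tendsto 0).comp h1
    rw [Real.sqrt_zero] at h3
    exact h3
  simp only [Real.sqrt_sq_eq_abs] at h2
  exact (tendsto_zero_iff_abs_tendsto_zero _).mpr h2

theorem not_auc (N : Seminorm ℝ (Y →L[ℝ] ℝ)) (hN : IsEquivalentNorm N) : ¬ IsAUC N := by
  intro h
  obtain ⟨a, b, ha, hb, hab⟩ := hN
  obtain ⟨δ, hδ, hauc⟩ := auc_extract h (t := a / (4 * b)) (by positivity)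
  have key : ∀ n k : ℕ, k ≤ n → ∃ l : List ℕ, l.length = k ∧
      (1 + δ / 2) ^ k * (a / 2) ≤ N (Br n l) := by
    intro n k
    induction k with
    | zero =>
      intro _
      refine ⟨[], rfl, ?_⟩
      have h1 := (hab (E (n, []))).1
      have h2 := E_norm_ge (n, [])
      rw [pow_zero, one_mul]
      change a / 2 ≤ N (E (n, []))
      nlinarith
    | succ k ih =>
      intro hk
      obtain ⟨l, hl, hl2⟩ := ih (by omega)
      have hx : a / 2 ≤ N (Br n l) := by
        have h1 : 1 ≤ (1 + δ / 2) ^ k := one_le_pow₀ (by linarith)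
        nlinarith
      have hx' : N (Br n l) ≤ b := by
        have h1 := (hab (Br n l)).2
        have h2 := Br_norm_le n l (by omega)
        nlinarith
      obtain ⟨i, hi⟩ := auc_step ha hb hδ hab hauc hx hx' (fun i => E (n, i :: l))
        (fun i => E_norm_ge _) (fun ξ => weak_null ξ n l)
      refine ⟨i :: l, by rw [List.length_cons, hl], ?_⟩
      have e : Br n (i :: l) = Br n l + E (n, i :: l) := by
        rw [add_comm]; rfl
      rw [e]
      refine le_trans ?_ hi
      rw [pow_succ]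
      have h3 : (1 + δ / 2) * ((1 + δ / 2) ^ k * (a / 2)) ≤ (1 + δ / 2) * N (Br n l) :=
        mul_le_mul_of_nonneg_left hl2 (by positivity)
      linarith
  obtain ⟨n, hn⟩ := pow_unbounded_of_one_lt (2 * b / a) (by linarith : 1 < 1 + δ / 2)
  obtain ⟨l, hl, hl2⟩ := key n n le_rfl
  have h1 := (hab (Br n l)).2
  have h2 := Br_norm_le n l (by omega)
  have h3 : N (Br n l) ≤ b := by nlinarith
  have h4 : 2 * b / a * (a / 2) < (1 + δ / 2) ^ n * (a / 2) :=
    mul_lt_mul_of_pos_right hn (by positivity)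
  have h5 : 2 * b / a * (a / 2) = b := by field_simp
  linarith

theorem not_finite : ¬ FiniteDimensional ℝ (Y →L[ℝ] ℝ) := by
  intro h
  have hF : IsCof (⊥ : Submodule ℝ (Y →L[ℝ] ℝ)) :=
    ⟨by rw [Submodule.bot_coe]; exact isClosed_singleton, inferInstance⟩
  obtain ⟨i, y, hy, hlt⟩ := near_F hF (fun i => E (0, i :: [])) (fun ξ => weak_null ξ 0 [])
    (η := 1 / 2) (by norm_num)
  rw [Submodule.mem_bot] at hy
  rw [hy, sub_zero] at hlt
  have := E_norm_ge (0, i :: [])
  linarith

theorem separable : TopologicalSpace.SeparableSpace (Y →L[ℝ] ℝ) := by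
  rw [← TopologicalSpace.isSeparable_univ_iff]
  have h1 : TopologicalSpace.IsSeparable (Set.range E) := (Set.countable_range E).isSeparable
  have h2 := (h1.span (R := ℝ)).closure
  refine h2.mono fun x _ => ?_
  rw [Metric.mem_closure_iff]
  intro ε hε
  obtain ⟨A, hA, -, hAt⟩ := tails x (ε := ε / 4) (by positivity) ∅
  refine ⟨x.comp (resC A hA), ?_, ?_⟩
  · rw [comp_res_eq]
    refine Submodule.sum_mem _ fun t _ => ?_
    exact Submodule.smul_mem _ _ (Submodule.subset_span ⟨t, rfl⟩)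
  · rw [dist_eq_norm]
    have h3 : ‖x - x.comp (resC A hA)‖ ≤ ε / 2 := by
      refine ContinuousLinearMap.opNorm_le_bound _ (by positivity) fun g => ?_
      have e : (x - x.comp (resC A hA)) g = x (res (A : Set (ℕ × List ℕ))ᶜ g) := by
        have e1 : x g = x (res A g) + x (res (A : Set (ℕ × List ℕ))ᶜ g) := by
          rw [← map_add, res_add_res_compl]
        have e2 : (x - x.comp (resC A hA)) g = x g - x (res A g) := rfl
        rw [e2, e1]
        ring
      rw [e, Real.norm_eq_abs]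
      have h2 := hAt (res (A : Set (ℕ × List ℕ))ᶜ g) fun t ht =>
        res_apply_not_mem _ fun hx : t ∈ (A : Set (ℕ × List ℕ))ᶜ => hx ht
      have h3 := res_compl_norm_le hA g
      have h4 : ε / 4 * ‖res (A : Set (ℕ × List ℕ))ᶜ g‖ ≤ ε / 4 * (2 * ‖g‖) :=
        mul_le_mul_of_nonneg_left h3 (by positivity)
      linarith
    linarith

theorem amuc_bound {t : ℝ} (ht : 0 < t) :
    (((min t 1) ^ 2 / 1024 : ℝ) : EReal) ≤ amucModulus (normSeminorm ℝ (Y →L[ℝ] ℝ)) t := by
  unfold amucModulus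
  refine le_iInf₂ fun x hx => ?_
  obtain ⟨F, hF, hF2⟩ := amuc_pointwise x hx ht
  refine le_iSup₂_of_le F hF ?_
  refine le_iInf₂ fun y hy => ?_
  have h1 := hF2 y hy.1 hy.2
  rw [EReal.coe_le_coe_iff]
  change (min t 1) ^ 2 / 1024 ≤ max ‖x + t • y‖ ‖x - t • y‖ - 1
  linarith

theorem amuc_norm : IsAMUC (normSeminorm ℝ (Y →L[ℝ] ℝ)) := by
  intro t ht
  refine lt_of_lt_of_le ?_ (amuc_bound ht)
  have h : 0 < (min t 1) ^ 2 / 1024 := by
    have : 0 < min t 1 := lt_min ht one_pos
    positivity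
  exact_mod_cast h

end MidTree
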