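import Vale.Agent.P069.Basic

/-!
# Restrictions and the merging lemma
-/

namespace MidTree

open Finset

lemma sub_coe (f g : Y) : (⇑(f - g) : ℕ × List ℕ → ℝ) = ⇑f - ⇑g := by
  funext t
  exact Finsupp.sub_apply f g t

/-- If coordinates have opposite signs, squares of norms are subadditive. -/
lemma orth_norm {f h : Y} (h1 : ∀ t, f t * h t ≤ 0)
    (h2 : ∀ n l, sig f n l * sig h n l ≤ 0) : ‖f + h‖ ^ 2 ≤ ‖f‖ ^ 2 + ‖h‖ ^ 2 := by
  refine norm_sq_le fun s c => ?_
  refine le_trans ?_ (add_le_add (qf_le f s c) (qf_le h s c))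
  unfold qf
  rw [← Finset.sum_add_distrib]
  refine Finset.sum_le_sum fun i _ => ?_
  rw [Y.add_coe, crd_add]
  have hle : crd c.1 f i * crd c.1 h i ≤ 0 := by
    cases i with
    | inl t => exact h1 t
    | inr n => exact h2 n _
  nlinarith [hle]

/-- Domination of norms. -/
lemma dom_norm {g g' : Y} (h1 : ∀ t, |g' t| ≤ |g t|)
    (h2 : ∀ n l, ∃ q : List ℕ, q.length ≤ l.length ∧ |sig g' n l| ≤ |sig g n q|) :
    ‖g'‖ ≤ ‖g‖ := by
  have key : ‖g'‖ ^ 2 ≤ ‖g‖ ^ 2 := by
    refine norm_sq_le fun s c => ?_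
    choose q hq1 hq2 using h2
    have hc : ∀ n, (q n (c.1 n)).length ≤ n := fun n => (hq1 n _).trans (c.2 n)
    refine le_trans ?_ (qf_le g s ⟨fun n => q n (c.1 n), hc⟩)
    unfold qf
    refine Finset.sum_le_sum fun i _ => ?_
    cases i with
    | inl t => exact sq_le_sq.mpr (h1 t)
    | inr n => exact sq_le_sq.mpr (hq2 n _)
  exact le_of_sq_le_sq key (norm_nonneg _)

lemma exists_Y (F : ℕ × List ℕ → ℝ) (g : Y) (h : ∀ t, g t = 0 → F t = 0) :
    ∃ g' : Y, ∀ t, g' t = F t := by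
  classical
  let g0 : (ℕ × List ℕ) →₀ ℝ := g
  exact ⟨Finsupp.onFinset g0.support F fun t ht =>
    Finsupp.mem_support_iff.mpr fun h0 => ht (h t h0), fun t => rfl⟩

open Classical in
/-- Restriction of `g` to the set `A`. -/
noncomputable def res (A : Set (ℕ × List ℕ)) (g : Y) : Y :=
  Finsupp.filter (fun t => t ∈ A) g

open Classical in
lemma res_apply (A : Set (ℕ × List ℕ)) (g : Y) (t : ℕ × List ℕ) :
    res A g t = if t ∈ A then g t else 0 := Finsupp.filter_apply _ _ _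

lemma res_apply_mem {A : Set (ℕ × List ℕ)} (g : Y) {t : ℕ × List ℕ} (h : t ∈ A) :
    res A g t = g t := by rw [res_apply, if_pos h]

lemma res_apply_not_mem {A : Set (ℕ × List ℕ)} (g : Y) {t : ℕ × List ℕ} (h : t ∉ A) :
    res A g t = 0 := by rw [res_apply, if_neg h]

lemma res_add_res_compl (A : Set (ℕ × List ℕ)) (g : Y) : res A g + res Aᶜ g = g := by
  refine Y.ext' fun t => ?_
  rw [Y.add_coe, Pi.add_apply]
  by_cases h : t ∈ A
  · rw [res_apply_mem g h, res_apply_not_mem g (by simpa using h), add_zero]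
  · rw [res_apply_not_mem g h, res_apply_mem g (by simpa using h), zero_add]

lemma res_add (A : Set (ℕ × List ℕ)) (f g : Y) : res A (f + g) = res A f + res A g := by
  refine Y.ext' fun t => ?_
  rw [Y.add_coe, Pi.add_apply]
  by_cases h : t ∈ A
  · rw [res_apply_mem _ h, res_apply_mem _ h, res_apply_mem _ h, Y.add_coe, Pi.add_apply]
  · rw [res_apply_not_mem _ h, res_apply_not_mem _ h, res_apply_not_mem _ h, zero_add]

lemma res_smul (A : Set (ℕ × List ℕ)) (a : ℝ) (g : Y) : res A (a • g) = a • res A g := by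
  refine Y.ext' fun t => ?_
  rw [Y.smul_coe, Pi.smul_apply]
  by_cases h : t ∈ A
  · rw [res_apply_mem _ h, res_apply_mem _ h, Y.smul_coe, Pi.smul_apply]
  · rw [res_apply_not_mem _ h, res_apply_not_mem _ h, smul_zero]

/-- Closed under taking parents. -/
def IsLow (A : Set (ℕ × List ℕ)) : Prop := ∀ n i l, (n, i :: l) ∈ A → (n, l) ∈ A

lemma sig_res_of_mem {A : Set (ℕ × List ℕ)} (hA : IsLow A) (g : Y) (n : ℕ) (l : List ℕ)
    (h : (n, l) ∈ A) : sig (res A g) n l = sig g n l := by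
  induction l with
  | nil => rw [sig_nil, sig_nil, res_apply_mem g h]
  | cons i l ih => rw [sig_cons, sig_cons, res_apply_mem g h, ih (hA n i l h)]

lemma sig_zero_of_low {A : Set (ℕ × List ℕ)} (hA : IsLow A) {g : Y} (hg : ∀ t ∈ A, g t = 0)
    (n : ℕ) (l : List ℕ) (h : (n, l) ∈ A) : sig g n l = 0 := by
  induction l with
  | nil => rw [sig_nil, hg _ h]
  | cons i l ih => rw [sig_cons, hg _ h, ih (hA n i l h), add_zero]

lemma res_norm_le {A : Set (ℕ × List ℕ)} (hA : IsLow A) (g : Y) : ‖res A g‖ ≤ ‖g‖ := by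
  refine dom_norm (fun t => ?_) fun n l => ?_
  · by_cases h : t ∈ A
    · rw [res_apply_mem g h]
    · rw [res_apply_not_mem g h, abs_zero]
      exact abs_nonneg _
  · induction l with
    | nil =>
      refine ⟨[], le_refl _, ?_⟩
      rw [sig_nil, sig_nil]
      by_cases h : ((n, []) : ℕ × List ℕ) ∈ A
      · rw [res_apply_mem g h]
      · rw [res_apply_not_mem g h, abs_zero]
        exact abs_nonneg _
    | cons i l ih =>
      by_cases h : (n, i :: l) ∈ A
      · exact ⟨i :: l, le_refl _, by rw [sig_res_of_mem hA g n _ h]⟩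
      · obtain ⟨q, hq1, hq2⟩ := ih
        refine ⟨q, hq1.trans (by simp), ?_⟩
        rw [sig_cons, res_apply_not_mem g h, zero_add]
        exact hq2

lemma res_compl_norm_le {A : Set (ℕ × List ℕ)} (hA : IsLow A) (g : Y) :
    ‖res Aᶜ g‖ ≤ 2 * ‖g‖ := by
  have h1 : res Aᶜ g = g - res A g := by
    have := res_add_res_compl A g
    exact eq_sub_of_add_eq' this
  rw [h1]
  have h2 := norm_sub_le g (res A g)
  have h3 := res_norm_le hA g
  linarith

/-- The image of `h` under a Lipschitz function applied to the path sums. -/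
def lipF (φ : ℝ → ℝ) (h : ℕ × List ℕ → ℝ) : ℕ × List ℕ → ℝ
  | (n, []) => φ (sig h n [])
  | (n, i :: l) => φ (sig h n (i :: l)) - φ (sig h n l)

lemma sig_lipF (φ : ℝ → ℝ) (h : ℕ × List ℕ → ℝ) (n : ℕ) (l : List ℕ) :
    sig (lipF φ h) n l = φ (sig h n l) := by
  induction l with
  | nil => rfl
  | cons i l ih =>
    rw [sig_cons, ih]
    change φ (sig h n (i :: l)) - φ (sig h n l) + φ (sig h n l) = _
    ring

lemma abs_lipF_le {φ : ℝ → ℝ} (h0 : φ 0 = 0) (h1 : ∀ a b, |φ a - φ b| ≤ |a - b|)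
    (h : ℕ × List ℕ → ℝ) (t : ℕ × List ℕ) : |lipF φ h t| ≤ |h t| := by
  obtain ⟨n, l⟩ := t
  cases l with
  | nil =>
    change |φ (sig h n [])| ≤ _
    have := h1 (h (n, [])) 0
    rwa [h0, sub_zero, sub_zero] at this
  | cons i l =>
    change |φ (sig h n (i :: l)) - φ (sig h n l)| ≤ _
    have := h1 (sig h n (i :: l)) (sig h n l)
    rwa [sig_cons, add_sub_cancel_right] at this

open Classical in
lemma piece {A : Set (ℕ × List ℕ)} (hA : IsLow A) {h : Y} (hh : ∀ t ∈ A, h t = 0)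
    {φ : ℝ → ℝ} (h0 : φ 0 = 0) (h1 : ∀ a b, |φ a - φ b| ≤ |a - b|)
    (P : Set (ℕ × List ℕ))
    (hP : ∀ n i l, (n, l) ∉ A → ((n, i :: l) ∈ P ↔ (n, l) ∈ P)) :
    ∃ G : Y, (∀ t, G t = if t ∈ P then lipF φ h t else 0) ∧
      (∀ n l, sig G n l = if (n, l) ∈ P then φ (sig h n l) else 0) ∧
      (∀ t ∈ A, G t = 0) ∧ ‖G‖ ≤ ‖h‖ := by
  have hz : ∀ t, h t = 0 → lipF φ h t = 0 := by
    intro t ht
    have := abs_lipF_le h0 h1 h t
    rw [ht, abs_zero] at this
    exact abs_eq_zero.mp (le_antisymm this (abs_nonneg _))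
  obtain ⟨G, hG⟩ := exists_Y (fun t => if t ∈ P then lipF φ h t else 0) h (by
    intro t ht
    simp only [hz t ht, ite_self])
  have hsig : ∀ n l, sig G n l = if (n, l) ∈ P then φ (sig h n l) else 0 := by
    intro n l
    induction l with
    | nil =>
      rw [sig_nil, hG]
      rfl
    | cons i l ih =>
      rw [sig_cons, ih, hG]
      change (if (n, i :: l) ∈ P then φ (sig h n (i :: l)) - φ (sig h n l) else 0) + _ = _
      by_cases hl : (n, l) ∈ A
      · have e : φ (sig h n l) = 0 := by rw [sig_zero_of_low hA hh n l hl, h0]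
        rw [e, ite_self, add_zero, sub_zero]
      · by_cases hp : (n, l) ∈ P
        · rw [if_pos hp, if_pos ((hP n i l hl).mpr hp), if_pos ((hP n i l hl).mpr hp)]
          ring
        · have hp' : (n, i :: l) ∉ P := fun hx => hp ((hP n i l hl).mp hx)
          rw [if_neg hp, if_neg hp', if_neg hp', add_zero]
  refine ⟨G, hG, hsig, ?_, ?_⟩
  · intro t ht
    rw [hG, hz t (hh t ht), ite_self]
  · refine dom_norm (fun t => ?_) fun n l => ⟨l, le_refl _, ?_⟩
    · rw [hG]
      split_ifs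
      · exact abs_lipF_le h0 h1 h t
      · rw [abs_zero]; exact abs_nonneg _
    · rw [hsig]
      split_ifs
      · have := h1 (sig h n l) 0
        rwa [h0, sub_zero, sub_zero] at this
      · rw [abs_zero]; exact abs_nonneg _

lemma phi_pos : ∀ a b : ℝ, |max a 0 - max b 0| ≤ |a - b| := by
  intro a b
  exact abs_max_sub_max_le_abs a b 0

lemma phi_neg : ∀ a b : ℝ, |max (-a) 0 - max (-b) 0| ≤ |a - b| := by
  intro a b
  have h := abs_max_sub_max_le_abs (-a) (-b) 0
  have e : |(-a) - (-b)| = |a - b| := by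
    rw [← abs_neg]
    congr 1
    ring
  rwa [e] at h

open Classical in
/-- The merging lemma. -/
lemma merge {A : Set (ℕ × List ℕ)} (hA : IsLow A) {f h : Y} (hf : ∀ t, t ∉ A → f t = 0)
    (hh : ∀ t ∈ A, h t = 0) (y : Y →ₗ[ℝ] ℝ) :
    ∃ (ε : ℝ) (h' : Y), (ε = 1 ∨ ε = -1) ∧ (∀ t ∈ A, h' t = 0) ∧ ‖h'‖ ≤ ‖h‖ ∧
      y h / 4 ≤ ε * y h' ∧
      ∀ c : ℝ, 0 ≤ c → ‖f + c • h'‖ ^ 2 ≤ ‖f‖ ^ 2 + c ^ 2 * ‖h'‖ ^ 2 := by
  obtain ⟨P, hPdef⟩ : ∃ P : Set (ℕ × List ℕ), P = {t | 0 ≤ sig f t.1 t.2} := ⟨_, rfl⟩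
  have hPm : ∀ n l, (n, l) ∈ P ↔ 0 ≤ sig f n l := by
    intro n l; rw [hPdef]; exact Iff.rfl
  have hP : ∀ n i l, (n, l) ∉ A → ((n, i :: l) ∈ P ↔ (n, l) ∈ P) := by
    intro n i l hl
    have h1 : (n, i :: l) ∉ A := fun hx => hl (hA n i l hx)
    rw [hPm, hPm, sig_cons, hf _ h1, zero_add]
  have hN : ∀ n i l, (n, l) ∉ A → ((n, i :: l) ∈ Pᶜ ↔ (n, l) ∈ Pᶜ) := by
    intro n i l hl
    rw [Set.mem_compl_iff, Set.mem_compl_iff, hP n i l hl]
  obtain ⟨G1, e1, s1, z1, n1⟩ := piece hA hh (φ := fun a => max a 0) (by simp) phi_pos P hP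
  obtain ⟨G2, e2, s2, z2, n2⟩ := piece hA hh (φ := fun a => max a 0) (by simp) phi_pos Pᶜ hN
  obtain ⟨G3, e3, s3, z3, n3⟩ := piece hA hh (φ := fun a => max (-a) 0) (by simp) phi_neg P hP
  obtain ⟨G4, e4, s4, z4, n4⟩ := piece hA hh (φ := fun a => max (-a) 0) (by simp) phi_neg Pᶜ hN
  have hdec : h = G1 + G2 - G3 - G4 := by
    refine Y.ext' fun t => ?_
    rw [sub_coe, sub_coe, Y.add_coe]
    simp only [Pi.sub_apply, Pi.add_apply]
    rw [e1, e2, e3, e4]
    have hlip : h t = lipF (fun a => max a 0) h t - lipF (fun a => max (-a) 0) h t := by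
      obtain ⟨n, l⟩ := t
      have hm : ∀ a : ℝ, max a 0 - max (-a) 0 = a := by
        intro a
        rcases le_total 0 a with ha | ha
        · rw [max_eq_left ha, max_eq_right (by linarith), sub_zero]
        · rw [max_eq_right ha, max_eq_left (by linarith)]
          ring
      cases l with
      | nil =>
        change _ = max (sig h n []) 0 - max (-(sig h n [])) 0
        rw [hm]
        rfl
      | cons i l =>
        change _ = (max (sig h n (i :: l)) 0 - max (sig h n l) 0)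
          - (max (-(sig h n (i :: l))) 0 - max (-(sig h n l)) 0)
        have a1 := hm (sig h n (i :: l))
        have a2 := hm (sig h n l)
        have a3 := sig_cons h n i l
        linarith
    by_cases hp : t ∈ P
    · have hp' : t ∉ Pᶜ := by simpa using hp
      rw [if_pos hp, if_pos hp, if_neg hp', if_neg hp', add_zero, sub_zero]
      exact hlip
    · have hp' : t ∈ Pᶜ := by simpa using hp
      rw [if_neg hp, if_neg hp, if_pos hp', if_pos hp', zero_add, sub_zero]
      exact hlip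
  have hy : y h = y G1 + y G2 - y G3 - y G4 := by
    rw [hdec, map_sub, map_sub, map_add]
  -- the norm estimate
  have hnorm : ∀ G : Y, (∀ t ∈ A, G t = 0) → (∀ n l, sig f n l * sig G n l ≤ 0) →
      ∀ c : ℝ, 0 ≤ c → ‖f + c • G‖ ^ 2 ≤ ‖f‖ ^ 2 + c ^ 2 * ‖G‖ ^ 2 := by
    intro G hG hs c hc
    have h1 : ‖f + c • G‖ ^ 2 ≤ ‖f‖ ^ 2 + ‖c • G‖ ^ 2 := by
      refine orth_norm (fun t => ?_) fun n l => ?_
      · rw [Y.smul_coe, Pi.smul_apply, smul_eq_mul]
        by_cases ht : t ∈ A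
        · rw [hG t ht]; simp
        · rw [hf t ht]; simp
      · rw [Y.smul_coe, sig_smul]
        have := hs n l
        have h2 : sig f n l * (c * sig G n l) = c * (sig f n l * sig G n l) := by ring
        rw [h2]
        exact mul_nonpos_of_nonneg_of_nonpos hc this
    rw [norm_smul, mul_pow, Real.norm_eq_abs, sq_abs] at h1
    exact h1
  have negz : ∀ G : Y, (∀ t ∈ A, G t = 0) → ∀ t ∈ A, (-G) t = 0 := by
    intro G hG t ht
    rw [Y.neg_coe, Pi.neg_apply, hG t ht, neg_zero]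
  by_cases c1 : y h / 4 ≤ y G1
  · refine ⟨-1, -G1, Or.inr rfl, negz G1 z1, by rwa [norm_neg], by rw [map_neg]; linarith,
      hnorm _ (negz G1 z1) fun n l => ?_⟩
    rw [Y.neg_coe, sig_neg, s1]
    split_ifs with hp
    · have h2 := (hPm n l).mp hp
      have h3 : 0 ≤ max (sig h n l) 0 := le_max_right _ _
      nlinarith
    · simp
  by_cases c2 : y h / 4 ≤ y G2
  · refine ⟨1, G2, Or.inl rfl, z2, n2, by linarith, hnorm _ z2 fun n l => ?_⟩
    rw [s2]
    split_ifs with hp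
    · have h2 : ¬ (0 ≤ sig f n l) := fun hx => hp ((hPm n l).mpr hx)
      have h3 : 0 ≤ max (sig h n l) 0 := le_max_right _ _
      push Not at h2
      nlinarith
    · simp
  by_cases c3 : y h / 4 ≤ - y G3
  · refine ⟨1, -G3, Or.inl rfl, negz G3 z3, by rwa [norm_neg], by rw [map_neg]; linarith,
      hnorm _ (negz G3 z3) fun n l => ?_⟩
    rw [Y.neg_coe, sig_neg, s3]
    split_ifs with hp
    · have h2 := (hPm n l).mp hp
      have h3 : 0 ≤ max (-sig h n l) 0 := le_max_right _ _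
      nlinarith
    · simp
  · refine ⟨-1, G4, Or.inr rfl, z4, n4, by push Not at c1 c2 c3; linarith,
      hnorm _ z4 fun n l => ?_⟩
    rw [s4]
    split_ifs with hp
    · have h2 : ¬ (0 ≤ sig f n l) := fun hx => hp ((hPm n l).mpr hx)
      have h3 : 0 ≤ max (-sig h n l) 0 := le_max_right _ _
      push Not at h2
      nlinarith
    · simp

end MidTree
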