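import Vale.Agent.P069.Dual

/-!
# Reflexivity of the dual of `Y`
-/

namespace MidTree

open Finset

lemma res_res (A : Set (ℕ × List ℕ)) (g : Y) : res A (res A g) = res A g := by
  refine Y.ext' fun t => ?_
  by_cases h : t ∈ A
  · rw [res_apply_mem _ h]
  · rw [res_apply_not_mem _ h, res_apply_not_mem _ h]

/-- Tails over far trees, dual side. -/
lemma dual_tail_far (ξ : (Y →L[ℝ] ℝ) →L[ℝ] ℝ) {ε : ℝ} (hε : 0 < ε) :
    ∃ N : ℕ, ∀ v : Y →L[ℝ] ℝ, (∀ g, v (res (HN N)ᶜ g) = v g) → |ξ v| ≤ ε * ‖v‖ := by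
  obtain ⟨δ, hδ, H⟩ := tail_gen ξ hε
  obtain ⟨x0, hx1, hx2⟩ := near_max ξ (half_pos hδ)
  have hξ : 0 < ‖ξ‖ + 1 := by positivity
  obtain ⟨N, hN⟩ := tail_far x0 (ε := δ / (2 * (‖ξ‖ + 1))) (by positivity)
  obtain ⟨u, hu⟩ : ∃ u, u = x0.comp (resC (HN N) (low_HN N)) := ⟨_, rfl⟩
  have hu1 : ∀ g, u g = x0 (res (HN N) g) := by intro g; rw [hu]; rfl
  have hun : ‖u‖ ≤ 1 := by
    rw [hu]
    exact (comp_resC_norm_le x0 _ _).trans hx1
  have hdiff : ‖x0 - u‖ ≤ δ / (2 * (‖ξ‖ + 1)) := by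
    refine ContinuousLinearMap.opNorm_le_bound _ (by positivity) fun g => ?_
    have e : (x0 - u) g = x0 (res (HN N)ᶜ g) := by
      have h1 : x0 g = x0 (res (HN N) g) + x0 (res (HN N)ᶜ g) := by
        rw [← map_add, res_add_res_compl]
      have h2 : (x0 - u) g = x0 g - u g := rfl
      rw [h2, hu1, h1]
      ring
    rw [e, Real.norm_eq_abs]
    refine (hN _ fun t ht => res_apply_not_mem _ fun hx : t ∈ (HN N)ᶜ => hx ht).trans ?_
    exact mul_le_mul_of_nonneg_left (res_norm_le (low_HN_compl N) g) (by positivity)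
  have hξu : ‖ξ‖ - δ ≤ ξ u := by
    have h1 := ξ.le_opNorm (x0 - u)
    have h2 : ‖ξ‖ * ‖x0 - u‖ ≤ δ / 2 := by
      calc ‖ξ‖ * ‖x0 - u‖ ≤ (‖ξ‖ + 1) * (δ / (2 * (‖ξ‖ + 1))) :=
            mul_le_mul (by linarith) hdiff (norm_nonneg _) (by positivity)
        _ = δ / 2 := by field_simp
    rw [map_sub, Real.norm_eq_abs] at h1
    have h3 := le_abs_self (ξ x0 - ξ u)
    linarith
  refine ⟨N, fun v hv => H u v hun hξu fun a => ?_⟩
  have h1 := dual_orth N (u := u) (v := a • v) (fun g => by rw [hu1, hu1, res_res])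
    (fun g => by
      change a * v (res (HN N)ᶜ g) = a * v g
      rw [hv])
  rwa [norm_smul, mul_pow, Real.norm_eq_abs, sq_abs] at h1

lemma comp_res_eq (z : Y →L[ℝ] ℝ) (B : Finset (ℕ × List ℕ))
    (hB : IsLow (B : Set (ℕ × List ℕ))) :
    z.comp (resC B hB) = ∑ t ∈ B, z (sgl t 1) • E t := by
  classical
  ext g
  rw [_root_.sum_apply]
  simp only [smul_apply, E_apply, smul_eq_mul]
  have h1 : (z.comp (resC B hB)) g = z (res B g) := rfl
  have h2 : res B g = fs B g := by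
    refine Y.ext' fun t => ?_
    rw [fs_apply, res_apply]
    simp only [Finset.mem_coe]
  rw [h1, h2, map_fs]
  exact Finset.sum_congr rfl fun t _ => mul_comm _ _

open Classical in
/-- Functionals on the dual of `Y` are approximated by their finite sections. -/
lemma dual_tails (ξ : (Y →L[ℝ] ℝ) →L[ℝ] ℝ) {ε : ℝ} (hε : 0 < ε) :
    ∃ A : Finset (ℕ × List ℕ), ∀ x : Y →L[ℝ] ℝ,
      |ξ x - ∑ t ∈ A, x (sgl t 1) * ξ (E t)| ≤ ε * ‖x‖ := by
  obtain ⟨N, hN⟩ := dual_tail_far ξ (half_pos hε)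
  obtain ⟨K, hK⟩ : ∃ K : ℝ, K = 1 + N * (N : ℝ) ^ 2 := ⟨_, rfl⟩
  have hK1 : 1 ≤ K := by rw [hK]; nlinarith [mul_nonneg (Nat.cast_nonneg (α := ℝ) N) (sq_nonneg (N : ℝ))]
  obtain ⟨F0, hF0⟩ := exists_vanishing (f := fun t => (ξ (E t)) ^ 2) (K := ‖ξ‖ ^ 2)
    (fun t => sq_nonneg _) (coef_dual_sq_le ξ) (ε := (ε / (2 * K)) ^ 2) (by positivity)
  refine ⟨F0.filter (fun t => t.1 < N), fun x => ?_⟩
  obtain ⟨z, hz⟩ : ∃ z, z = x.comp (resC (HN N) (low_HN N)) := ⟨_, rfl⟩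
  obtain ⟨w, hw⟩ : ∃ w, w = x.comp (resC (HN N)ᶜ (low_HN_compl N)) := ⟨_, rfl⟩
  have hz1 : ∀ g, z g = x (res (HN N) g) := by intro g; rw [hz]; rfl
  have hw1 : ∀ g, w g = x (res (HN N)ᶜ g) := by intro g; rw [hw]; rfl
  have hx : x = z + w := by
    ext g
    have h1 : (z + w) g = z g + w g := rfl
    rw [h1, hz1, hw1, ← map_add, res_add_res_compl]
  have hwn : ‖w‖ ≤ ‖x‖ := by rw [hw]; exact comp_resC_norm_le _ _ _
  have hξw : |ξ w| ≤ ε / 2 * ‖x‖ := by
    refine (hN w fun g => by rw [hw1, hw1, res_res]).trans ?_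
    exact mul_le_mul_of_nonneg_left hwn (by positivity)
  have hξz : |ξ z - ∑ t ∈ F0.filter (fun t => t.1 < N), x (sgl t 1) * ξ (E t)|
      ≤ ε / 2 * ‖x‖ := by
    refine le_of_forall_pos_le_add fun η hη => ?_
    have hξ : 0 < ‖ξ‖ + 1 := by positivity
    obtain ⟨B, hB, hAB, hBt⟩ := tails z (ε := η / (2 * (‖ξ‖ + 1))) (by positivity) F0
    have h1 : ‖z - z.comp (resC B hB)‖ ≤ η / (‖ξ‖ + 1) := by
      refine ContinuousLinearMap.opNorm_le_bound _ (by positivity) fun g => ?_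
      have e : (z - z.comp (resC B hB)) g = z (res (B : Set (ℕ × List ℕ))ᶜ g) := by
        have e1 : z g = z (res B g) + z (res (B : Set (ℕ × List ℕ))ᶜ g) := by
          rw [← map_add, res_add_res_compl]
        have e2 : (z - z.comp (resC B hB)) g = z g - z (res B g) := rfl
        rw [e2, e1]
        ring
      rw [e, Real.norm_eq_abs]
      have h2 := hBt (res (B : Set (ℕ × List ℕ))ᶜ g) fun t ht =>
        res_apply_not_mem _ fun hx : t ∈ (B : Set (ℕ × List ℕ))ᶜ => hx ht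
      refine h2.trans ?_
      have h3 := res_compl_norm_le hB g
      calc η / (2 * (‖ξ‖ + 1)) * ‖res (B : Set (ℕ × List ℕ))ᶜ g‖
          ≤ η / (2 * (‖ξ‖ + 1)) * (2 * ‖g‖) := mul_le_mul_of_nonneg_left h3 (by positivity)
        _ = η / (‖ξ‖ + 1) * ‖g‖ := by field_simp
    have h2 : |ξ z - ξ (z.comp (resC B hB))| ≤ η := by
      rw [← map_sub, ← Real.norm_eq_abs]
      refine (ξ.le_opNorm _).trans ?_
      calc ‖ξ‖ * ‖z - z.comp (resC B hB)‖ ≤ (‖ξ‖ + 1) * (η / (‖ξ‖ + 1)) :=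
            mul_le_mul (by linarith) h1 (norm_nonneg _) (by positivity)
        _ = η := by field_simp
    have h3 : ξ (z.comp (resC B hB)) = ∑ t ∈ B.filter (fun t => t.1 < N), x (sgl t 1) * ξ (E t) := by
      rw [comp_res_eq, map_sum, Finset.sum_filter]
      refine Finset.sum_congr rfl fun t _ => ?_
      rw [map_smul, smul_eq_mul, hz1]
      split_ifs with h
      · congr 2
        refine Y.ext' fun u => ?_
        rw [res_apply, sgl_apply]
        by_cases hu : t = u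
        · rw [if_pos hu, if_pos (by rw [← hu]; exact h)]
        · rw [if_neg hu, ite_self]
      · have e : res (HN N) (sgl t 1) = 0 := by
          refine Y.ext' fun u => ?_
          rw [res_apply, sgl_apply, Y.zero_coe]
          by_cases hu : t = u
          · rw [if_neg]
            · rfl
            · rw [← hu]; exact h
          · rw [if_neg hu, ite_self]; rfl
        rw [e, map_zero, zero_mul]
    have h4 : ∑ t ∈ B.filter (fun t => t.1 < N), x (sgl t 1) * ξ (E t)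
        = ∑ t ∈ F0.filter (fun t => t.1 < N), x (sgl t 1) * ξ (E t)
          + ∑ t ∈ (B \ F0).filter (fun t => t.1 < N), x (sgl t 1) * ξ (E t) := by
      rw [← Finset.sum_union]
      · congr 1
        rw [← Finset.filter_union, Finset.union_sdiff_of_subset hAB]
      · refine Finset.disjoint_filter_filter ?_
        exact Finset.disjoint_sdiff
    have h5 : |∑ t ∈ (B \ F0).filter (fun t => t.1 < N), x (sgl t 1) * ξ (E t)|
        ≤ (K * ‖x‖) * (ε / (2 * K)) := by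
      refine abs_sum_mul_le _ _ _ (by positivity) (by positivity) ?_ ?_
      · refine (coef_sq_le x N _ fun t ht => (Finset.mem_filter.mp ht).2).trans ?_
        rw [← hK, mul_pow]
        exact mul_le_mul_of_nonneg_right (by nlinarith) (sq_nonneg _)
      · refine hF0 _ ?_
        rw [Finset.disjoint_left]
        intro t ht
        exact (Finset.mem_sdiff.mp (Finset.mem_filter.mp ht).1).2
    have h6 : (K * ‖x‖) * (ε / (2 * K)) = ε / 2 * ‖x‖ := by
      have : K ≠ 0 := by positivity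
      field_simp
    rw [h6] at h5
    rw [h3, h4] at h2
    obtain ⟨a, ha⟩ : ∃ a, a = ∑ t ∈ F0.filter (fun t => t.1 < N), x (sgl t 1) * ξ (E t) := ⟨_, rfl⟩
    obtain ⟨b, hb⟩ : ∃ b, b = ∑ t ∈ (B \ F0).filter (fun t => t.1 < N), x (sgl t 1) * ξ (E t) :=
      ⟨_, rfl⟩
    rw [← ha, ← hb] at h2
    rw [← hb] at h5
    rw [← ha]
    rw [abs_le] at h2 h5 ⊢
    constructor
    · linarith [h2.1, h5.1]
    · linarith [h2.2, h5.2]
  have hfin : ξ x = ξ z + ξ w := by
    conv_lhs => rw [hx]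
    exact map_add ξ z w
  rw [hfin]
  rw [abs_le] at hξz hξw ⊢
  constructor
  · linarith [hξz.1, hξw.1]
  · linarith [hξz.2, hξw.2]

/-- The dual of `Y` is reflexive. -/
theorem reflexive : Function.Surjective (NormedSpace.inclusionInDoubleDual ℝ (Y →L[ℝ] ℝ)) := by
  intro φ
  obtain ⟨J, hJ⟩ : ∃ J, J = NormedSpace.inclusionInDoubleDual ℝ Y := ⟨_, rfl⟩
  refine ⟨φ.comp J, ?_⟩
  ext ξ
  rw [NormedSpace.dual_def]
  -- `ξ (φ ∘ J) = φ ξ`
  have key : ∀ ε : ℝ, 0 < ε → |ξ (φ.comp J) - φ ξ| ≤ ε * (‖φ.comp J‖ + ‖φ‖) := by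
    intro ε hε
    obtain ⟨A, hA⟩ := dual_tails ξ hε
    have h1 := hA (φ.comp J)
    have h2 : ‖ξ - J (fs A fun t => ξ (E t))‖ ≤ ε := by
      refine ContinuousLinearMap.opNorm_le_bound _ hε.le fun x => ?_
      have e : (ξ - J (fs A fun t => ξ (E t))) x = ξ x - ∑ t ∈ A, x (sgl t 1) * ξ (E t) := by
        have e1 : (ξ - J (fs A fun t => ξ (E t))) x = ξ x - J (fs A fun t => ξ (E t)) x := rfl
        rw [e1, hJ, NormedSpace.dual_def, map_fs]
        congr 1
        exact Finset.sum_congr rfl fun t _ => mul_comm _ _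
      rw [e, Real.norm_eq_abs]
      exact hA x
    have h3 : φ (J (fs A fun t => ξ (E t))) = ∑ t ∈ A, (φ.comp J) (sgl t 1) * ξ (E t) := by
      have e1 : φ (J (fs A fun t => ξ (E t))) = (φ.comp J) (fs A fun t => ξ (E t)) := rfl
      rw [e1, map_fs]
      exact Finset.sum_congr rfl fun t _ => mul_comm _ _
    have h4 : |φ (ξ - J (fs A fun t => ξ (E t)))| ≤ ‖φ‖ * ε := by
      rw [← Real.norm_eq_abs]
      exact (φ.le_opNorm _).trans (mul_le_mul_of_nonneg_left h2 (norm_nonneg _))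
    rw [map_sub, h3] at h4
    rw [abs_le] at h1 h4 ⊢
    constructor
    · linarith [h1.1, h4.2]
    · linarith [h1.2, h4.1]
  by_contra hne
  have hpos : 0 < |ξ (φ.comp J) - φ ξ| := abs_pos.mpr (sub_ne_zero.mpr hne)
  obtain ⟨d, hd⟩ : ∃ d, d = |ξ (φ.comp J) - φ ξ| := ⟨_, rfl⟩
  obtain ⟨M, hM⟩ : ∃ M, M = ‖φ.comp J‖ + ‖φ‖ := ⟨_, rfl⟩
  have hM0 : 0 ≤ M := by rw [hM]; positivity
  have h := key (d / (2 * (M + 1))) (by rw [hd]; positivity)
  rw [← hd, ← hM] at h
  rw [← hd] at hpos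
  have h2 : d / (2 * (M + 1)) * M ≤ d / 2 := by
    rw [div_mul_eq_mul_div, div_le_div_iff₀ (by positivity) (by norm_num)]
    nlinarith
  linarith

end MidTree
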