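import Vale.Agent.P069.Merge

/-!
# Tails of functionals on `Y`
-/

namespace MidTree

open Finset

section general

variable {Z : Type*} [NormedAddCommGroup Z] [NormedSpace ℝ Z]

lemma near_max (ξ : Z →L[ℝ] ℝ) {δ : ℝ} (hδ : 0 < δ) : ∃ f : Z, ‖f‖ ≤ 1 ∧ ‖ξ‖ - δ ≤ ξ f := by
  obtain ⟨f, hf1, hf2⟩ := ξ.exists_lt_apply_of_lt_opNorm (r := ‖ξ‖ - δ) (by linarith)
  rw [Real.norm_eq_abs] at hf2
  rcases le_total 0 (ξ f) with h | h
  · rw [abs_of_nonneg h] at hf2
    exact ⟨f, hf1.le, hf2.le⟩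
  · rw [abs_of_nonpos h] at hf2
    refine ⟨-f, by rw [norm_neg]; exact hf1.le, ?_⟩
    rw [map_neg]
    exact hf2.le

lemma sqrt_one_add_le (c : ℝ) {x : ℝ} (hx : x ^ 2 ≤ 1 + c ^ 2) : x ≤ 1 + c ^ 2 / 2 := by
  have h : x ^ 2 ≤ (1 + c ^ 2 / 2) ^ 2 := by nlinarith [sq_nonneg (c ^ 2)]
  exact le_of_sq_le_sq h (by positivity)

/-- Almost maximal vectors force the functional to be small on orthogonal vectors. -/
lemma tail_gen (ξ : Z →L[ℝ] ℝ) {ε : ℝ} (hε : 0 < ε) :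
    ∃ δ : ℝ, 0 < δ ∧ ∀ f h : Z, ‖f‖ ≤ 1 → ‖ξ‖ - δ ≤ ξ f →
      (∀ a : ℝ, ‖f + a • h‖ ^ 2 ≤ ‖f‖ ^ 2 + a ^ 2 * ‖h‖ ^ 2) → |ξ h| ≤ ε * ‖h‖ := by
  obtain ⟨c, hc⟩ : ∃ c, c = ε / (‖ξ‖ + 1) := ⟨_, rfl⟩
  have hξ : 0 < ‖ξ‖ + 1 := by positivity
  have hc0 : 0 < c := by rw [hc]; positivity
  have hc1 : ‖ξ‖ * c ≤ ε := by
    rw [hc, mul_div_assoc', div_le_iff₀ hξ]
    nlinarith [norm_nonneg ξ]
  refine ⟨c * ε / 2, by positivity, fun f h hf hξf horth => ?_⟩
  rcases eq_or_ne h 0 with rfl | hh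
  · simp
  have hn : 0 < ‖h‖ := norm_pos_iff.mpr hh
  have key : ∀ a : ℝ, a ^ 2 = (c / ‖h‖) ^ 2 → a * ξ h ≤ c * ε := by
    intro a ha
    have h1 := horth a
    rw [ha, div_pow, div_mul_cancel₀ _ (by positivity)] at h1
    have h2 : ‖f + a • h‖ ^ 2 ≤ 1 + c ^ 2 := by
      have : ‖f‖ ^ 2 ≤ 1 := by nlinarith [norm_nonneg f]
      linarith
    have h3 := sqrt_one_add_le c h2
    have h4 : ξ (f + a • h) ≤ ‖ξ‖ * ‖f + a • h‖ :=
      (le_abs_self _).trans (ξ.le_opNorm _)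
    rw [map_add, map_smul, smul_eq_mul] at h4
    have h5 : ‖ξ‖ * ‖f + a • h‖ ≤ ‖ξ‖ * (1 + c ^ 2 / 2) :=
      mul_le_mul_of_nonneg_left h3 (norm_nonneg _)
    have h6 : ‖ξ‖ * (c ^ 2 / 2) ≤ c * ε / 2 := by nlinarith
    nlinarith
  have k1 := key (c / ‖h‖) rfl
  have k2 := key (-(c / ‖h‖)) (by ring)
  have k3 : (c / ‖h‖) * |ξ h| ≤ c * ε := by
    rcases abs_cases (ξ h) with ⟨e, _⟩ | ⟨e, _⟩
    · rw [e]; exact k1
    · rw [e]; linarith
  have k4 : c * |ξ h| ≤ c * (ε * ‖h‖) := by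
    have : c / ‖h‖ * |ξ h| * ‖h‖ ≤ c * ε * ‖h‖ := mul_le_mul_of_nonneg_right k3 hn.le
    have e : c / ‖h‖ * |ξ h| * ‖h‖ = c * |ξ h| := by field_simp
    rw [e] at this
    linarith
  exact le_of_mul_le_mul_left k4 hc0

end general

/-- The first `N` trees. -/
def HN (N : ℕ) : Set (ℕ × List ℕ) := {t | t.1 < N}

lemma mem_HN {N : ℕ} {t : ℕ × List ℕ} : t ∈ HN N ↔ t.1 < N := Iff.rfl

lemma low_HN (N : ℕ) : IsLow (HN N) := fun _ _ _ h => h

lemma low_HN_compl (N : ℕ) : IsLow (HN N)ᶜ := fun _ _ _ h => h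

lemma head_tail_orth {N : ℕ} {f h : Y} (hf : ∀ t, t ∉ HN N → f t = 0)
    (hh : ∀ t ∈ HN N, h t = 0) : ‖f + h‖ ^ 2 ≤ ‖f‖ ^ 2 + ‖h‖ ^ 2 := by
  refine orth_norm (fun t => ?_) fun n l => ?_
  · by_cases ht : t ∈ HN N
    · rw [hh t ht]; simp
    · rw [hf t ht]; simp
  · by_cases hn : n < N
    · rw [sig_zero_of (g := ⇑h) n (fun l => hh (n, l) hn)]; simp
    · rw [sig_zero_of (g := ⇑f) n (fun l => hf (n, l) hn)]; simp

/-- The sum of squares over finitely many nodes is at most the square of the norm. -/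
lemma sum_sq_le (g : Y) (F : Finset (ℕ × List ℕ)) : ∑ t ∈ F, (g t) ^ 2 ≤ ‖g‖ ^ 2 := by
  have h := qf_le g (F.disjSum ∅) (Classical.arbitrary Ch)
  unfold qf at h
  rw [Finset.sum_disjSum, Finset.sum_empty, add_zero] at h
  exact h

lemma abs_apply_le (g : Y) (t : ℕ × List ℕ) : |g t| ≤ ‖g‖ := by
  have h := sum_sq_le g {t}
  rw [Finset.sum_singleton] at h
  exact abs_le_of_sq_le_sq h (norm_nonneg _)

lemma abs_sig_le_norm (g : Y) (n : ℕ) (l : List ℕ) (hl : l.length ≤ n) :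
    |sig g n l| ≤ ‖g‖ := by
  classical
  have h := qf_le g {.inr n} ⟨fun m => if m = n then l else [], by
    intro m
    by_cases hm : m = n
    · simp only [if_pos hm]; omega
    · simp only [if_neg hm]; simp⟩
  simp only [qf, Finset.sum_singleton, crd, if_true] at h
  exact abs_le_of_sq_le_sq h (norm_nonneg _)

lemma abs_sig_le_length {g : ℕ × List ℕ → ℝ} {M : ℝ} (hM : ∀ t, |g t| ≤ M) (n : ℕ) (l : List ℕ) :
    |sig g n l| ≤ (l.length + 1) * M := by
  induction l with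
  | nil => simpa using hM (n, [])
  | cons i l ih =>
    rw [sig_cons]
    have h1 := abs_add_le (g (n, i :: l)) (sig g n l)
    have h2 := hM (n, i :: l)
    push_cast [List.length_cons]
    linarith

open Classical in
/-- The function with finite support `F` and values `a`. -/
noncomputable def fs (F : Finset (ℕ × List ℕ)) (a : ℕ × List ℕ → ℝ) : Y :=
  ∑ t ∈ F, sgl t (a t)

lemma sum_coe {ι : Type*} (s : Finset ι) (f : ι → Y) (t : ℕ × List ℕ) :
    (∑ i ∈ s, f i) t = ∑ i ∈ s, f i t := by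
  classical
  induction s using Finset.induction_on with
  | empty => rw [Finset.sum_empty, Finset.sum_empty, Y.zero_coe]; rfl
  | insert i s hi ih =>
    rw [Finset.sum_insert hi, Finset.sum_insert hi, Y.add_coe, Pi.add_apply, ih]

open Classical in
lemma fs_apply (F : Finset (ℕ × List ℕ)) (a : ℕ × List ℕ → ℝ) (t : ℕ × List ℕ) :
    fs F a t = if t ∈ F then a t else 0 := by
  unfold fs
  rw [sum_coe]
  simp only [sgl_apply]
  rw [Finset.sum_ite_eq']

open Classical in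
/-- On the first `N` trees the norm is equivalent to the Euclidean norm. -/
lemma fs_norm_le (N : ℕ) (F : Finset (ℕ × List ℕ)) (hF : ∀ t ∈ F, t.1 < N)
    (a : ℕ × List ℕ → ℝ) :
    ‖fs F a‖ ^ 2 ≤ (1 + N * (N : ℝ) ^ 2) * ∑ t ∈ F, (a t) ^ 2 := by
  obtain ⟨S, hS⟩ : ∃ S, S = ∑ t ∈ F, (a t) ^ 2 := ⟨_, rfl⟩
  have hS0 : 0 ≤ S := by rw [hS]; exact Finset.sum_nonneg fun _ _ => sq_nonneg _
  rw [← hS]
  have hval : ∀ t, |fs F a t| ≤ √S := by
    intro t
    rw [fs_apply]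
    split_ifs with ht
    · refine Real.abs_le_sqrt ?_
      rw [hS]
      exact Finset.single_le_sum (f := fun t => (a t) ^ 2) (fun _ _ => sq_nonneg _) ht
    · rw [abs_zero]; exact Real.sqrt_nonneg _
  refine norm_sq_le fun s c => ?_
  obtain ⟨G, hG⟩ : ∃ G : (ℕ × List ℕ) ⊕ ℕ → ℝ, G = Sum.elim
    (fun t => if t ∈ F then (a t) ^ 2 else 0) (fun n => if n < N then (N : ℝ) ^ 2 * S else 0) :=
    ⟨_, rfl⟩
  have hG0 : ∀ i, 0 ≤ G i := by
    intro i
    rw [hG]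
    cases i with
    | inl t =>
      simp only [Sum.elim_inl]
      split_ifs
      · exact sq_nonneg _
      · exact le_refl _
    | inr n =>
      simp only [Sum.elim_inr]
      split_ifs
      · positivity
      · exact le_refl _
  have h1 : ∀ i ∈ s, (crd c.1 (fs F a) i) ^ 2 ≤ G i := by
    intro i _
    rw [hG]
    cases i with
    | inl t =>
      simp only [Sum.elim_inl, crd]
      rw [fs_apply]
      split_ifs
      · exact le_refl _
      · simp
    | inr n =>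
      simp only [Sum.elim_inr, crd]
      split_ifs with hn
      · have h2 := abs_sig_le_length hval n (c.1 n)
        have h3 : ((c.1 n).length : ℝ) + 1 ≤ N := by
          have := c.2 n
          have h4 : (c.1 n).length + 1 ≤ N := by omega
          exact_mod_cast h4
        have h4 : |sig (fs F a) n (c.1 n)| ≤ N * √S :=
          h2.trans (mul_le_mul_of_nonneg_right h3 (Real.sqrt_nonneg _))
        have h5 := sq_le_sq' (by linarith [neg_abs_le (sig (fs F a) n (c.1 n))])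
          ((le_abs_self _).trans h4)
        rw [mul_pow, Real.sq_sqrt hS0] at h5
        exact h5
      · rw [sig_zero_of n fun l => ?_]
        · simp
        · rw [fs_apply, if_neg]
          intro hx
          exact hn (hF _ hx)
  refine (Finset.sum_le_sum h1).trans ?_
  have h2 : ∑ i ∈ s, G i ≤ ∑ i ∈ s ∪ F.disjSum (Finset.range N), G i :=
    Finset.sum_le_sum_of_subset_of_nonneg Finset.subset_union_left fun i _ _ => hG0 i
  have h3 : ∑ i ∈ F.disjSum (Finset.range N), G i = ∑ i ∈ s ∪ F.disjSum (Finset.range N), G i := by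
    refine Finset.sum_subset Finset.subset_union_right fun i _ hi => ?_
    rw [hG]
    cases i with
    | inl t =>
      simp only [Sum.elim_inl]
      rw [if_neg]
      simpa using hi
    | inr n =>
      simp only [Sum.elim_inr]
      rw [if_neg]
      simpa using hi
  rw [← h3, Finset.sum_disjSum] at h2
  refine h2.trans (le_of_eq ?_)
  have e1 : ∑ t ∈ F, G (.inl t) = S := by
    rw [hS, hG]
    refine Finset.sum_congr rfl fun t ht => ?_
    simp only [Sum.elim_inl]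
    rw [if_pos ht]
  have e2 : ∑ n ∈ Finset.range N, G (.inr n) = N * ((N : ℝ) ^ 2 * S) := by
    rw [hG]
    have : ∀ n ∈ Finset.range N, Sum.elim (fun t => if t ∈ F then (a t) ^ 2 else 0)
        (fun n => if n < N then (N : ℝ) ^ 2 * S else 0) (.inr n : (ℕ × List ℕ) ⊕ ℕ)
        = (N : ℝ) ^ 2 * S := by
      intro n hn
      simp only [Sum.elim_inr]
      rw [if_pos (Finset.mem_range.mp hn)]
    rw [Finset.sum_congr rfl this, Finset.sum_const, Finset.card_range, nsmul_eq_mul]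
  rw [e1, e2]
  ring

/-- Every finite set is contained in a finite set closed under parents. -/
lemma exists_low (B : Finset (ℕ × List ℕ)) :
    ∃ A : Finset (ℕ × List ℕ), IsLow (A : Set (ℕ × List ℕ)) ∧ B ⊆ A := by
  classical
  refine ⟨B.biUnion fun t => (t.2.tails.map fun q => (t.1, q)).toFinset, ?_, ?_⟩
  · intro n i l h
    simp only [Finset.coe_biUnion, Set.mem_iUnion, Finset.mem_coe, List.mem_toFinset, List.mem_map,
      List.mem_tails, Prod.mk.injEq] at h ⊢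
    obtain ⟨t, ht, q, hq, e1, e2⟩ := h
    refine ⟨t, ht, l, ?_, e1, rfl⟩
    rw [e2] at hq
    exact (List.suffix_cons i l).trans hq
  · intro t ht
    simp only [Finset.mem_biUnion, List.mem_toFinset, List.mem_map, List.mem_tails]
    exact ⟨t, ht, t.2, List.suffix_refl _, rfl⟩

/-- The support of an element of `Y`, as a finite set. -/
lemma exists_supp (g : Y) : ∃ F : Finset (ℕ × List ℕ), ∀ t, t ∉ F → g t = 0 := by
  let g0 : (ℕ × List ℕ) →₀ ℝ := g
  exact ⟨g0.support, fun t ht => Finsupp.notMem_support_iff.mp ht⟩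

lemma eq_fs (g : Y) (F : Finset (ℕ × List ℕ)) (hF : ∀ t, t ∉ F → g t = 0) :
    g = fs F g := by
  classical
  refine Y.ext' fun t => ?_
  rw [fs_apply]
  split_ifs with h
  · rfl
  · exact hF t h

lemma map_fs (x : Y →L[ℝ] ℝ) (F : Finset (ℕ × List ℕ)) (a : ℕ × List ℕ → ℝ) :
    x (fs F a) = ∑ t ∈ F, a t * x (sgl t 1) := by
  unfold fs
  rw [map_sum]
  refine Finset.sum_congr rfl fun t _ => ?_
  have e : sgl t (a t) = a t • sgl t 1 := by
    refine Y.ext' fun u => ?_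
    rw [Y.smul_coe, Pi.smul_apply, sgl_apply, sgl_apply, smul_eq_mul]
    split_ifs <;> simp
  rw [e, map_smul, smul_eq_mul]

/-- Squares of the coefficients of a functional over the first `N` trees. -/
lemma coef_sq_le (x : Y →L[ℝ] ℝ) (N : ℕ) (F : Finset (ℕ × List ℕ)) (hF : ∀ t ∈ F, t.1 < N) :
    ∑ t ∈ F, (x (sgl t 1)) ^ 2 ≤ (1 + N * (N : ℝ) ^ 2) * ‖x‖ ^ 2 := by
  obtain ⟨S, hS⟩ : ∃ S, S = ∑ t ∈ F, (x (sgl t 1)) ^ 2 := ⟨_, rfl⟩
  have hS0 : 0 ≤ S := by rw [hS]; exact Finset.sum_nonneg fun _ _ => sq_nonneg _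
  have h1 := fs_norm_le N F hF fun t => x (sgl t 1)
  have h2 := map_fs x F fun t => x (sgl t 1)
  have h3 : x (fs F fun t => x (sgl t 1)) = S := by
    rw [h2, hS]
    exact Finset.sum_congr rfl fun t _ => by ring
  have h4 := x.le_opNorm (fs F fun t => x (sgl t 1))
  rw [h3, Real.norm_eq_abs, abs_of_nonneg hS0] at h4
  rw [← hS] at h1 ⊢
  have h5 : S ^ 2 ≤ ‖x‖ ^ 2 * ((1 + N * (N : ℝ) ^ 2) * S) := by
    calc S ^ 2 ≤ (‖x‖ * ‖fs F fun t => x (sgl t 1)‖) ^ 2 := pow_le_pow_left₀ hS0 h4 2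
      _ = ‖x‖ ^ 2 * ‖fs F fun t => x (sgl t 1)‖ ^ 2 := by ring
      _ ≤ _ := mul_le_mul_of_nonneg_left h1 (sq_nonneg _)
  rcases hS0.eq_or_lt with h0 | h0
  · rw [← h0]; positivity
  · have h6 : S * S ≤ ((1 + N * (N : ℝ) ^ 2) * ‖x‖ ^ 2) * S := by nlinarith
    exact le_of_mul_le_mul_right h6 h0

lemma abs_sum_mul_le {ι : Type*} (F : Finset ι) (u v : ι → ℝ) {a b : ℝ} (ha : 0 ≤ a) (hb : 0 ≤ b)
    (h1 : ∑ t ∈ F, (u t) ^ 2 ≤ a ^ 2) (h2 : ∑ t ∈ F, (v t) ^ 2 ≤ b ^ 2) :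
    |∑ t ∈ F, u t * v t| ≤ a * b := by
  have h := Finset.sum_mul_sq_le_sq_mul_sq F u v
  refine abs_le_of_sq_le_sq ?_ (mul_nonneg ha hb)
  rw [mul_pow]
  exact h.trans (mul_le_mul h1 h2 (Finset.sum_nonneg fun _ _ => sq_nonneg _) (sq_nonneg _))

/-- Tails over far trees. -/
lemma tail_far (x : Y →L[ℝ] ℝ) {ε : ℝ} (hε : 0 < ε) :
    ∃ N : ℕ, ∀ h : Y, (∀ t ∈ HN N, h t = 0) → |x h| ≤ ε * ‖h‖ := by
  obtain ⟨δ, hδ, H⟩ := tail_gen x hε
  obtain ⟨f, hf1, hf2⟩ := near_max x hδ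
  obtain ⟨F, hF⟩ := exists_supp f
  refine ⟨F.sup Prod.fst + 1, fun h hh => H f h hf1 hf2 fun a => ?_⟩
  have h1 : ‖f + a • h‖ ^ 2 ≤ ‖f‖ ^ 2 + ‖a • h‖ ^ 2 := by
    refine head_tail_orth (N := F.sup Prod.fst + 1) (fun t ht => ?_) fun t ht => ?_
    · refine hF t fun hx => ht ?_
      rw [mem_HN]
      exact Nat.lt_succ_of_le (Finset.le_sup (f := Prod.fst) hx)
    · rw [Y.smul_coe, Pi.smul_apply, hh t ht, smul_zero]
  rwa [norm_smul, mul_pow, Real.norm_eq_abs, sq_abs] at h1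

lemma exists_vanishing {f : ℕ × List ℕ → ℝ} {K : ℝ} (hf : ∀ t, 0 ≤ f t)
    (h : ∀ F : Finset (ℕ × List ℕ), ∑ t ∈ F, f t ≤ K) {ε : ℝ} (hε : 0 < ε) :
    ∃ F0 : Finset (ℕ × List ℕ), ∀ F : Finset (ℕ × List ℕ), Disjoint F F0 →
      ∑ t ∈ F, f t ≤ ε := by
  have hs : Summable f := summable_of_sum_le hf h
  obtain ⟨F0, hF0⟩ := summable_iff_vanishing_norm.mp hs ε hε
  refine ⟨F0, fun F hF => ?_⟩
  have := hF0 F hF
  exact (le_abs_self _).trans this.le

open Classical in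
/-- Tails of a functional on `Y`. -/
lemma tails (x : Y →L[ℝ] ℝ) {ε : ℝ} (hε : 0 < ε) (B : Finset (ℕ × List ℕ)) :
    ∃ A : Finset (ℕ × List ℕ), IsLow (A : Set (ℕ × List ℕ)) ∧ B ⊆ A ∧
      ∀ h : Y, (∀ t ∈ A, h t = 0) → |x h| ≤ ε * ‖h‖ := by
  obtain ⟨N, hN⟩ := tail_far x (half_pos hε)
  obtain ⟨F0, hF0⟩ := exists_vanishing (f := fun t => if t.1 < N then (x (sgl t 1)) ^ 2 else 0)
    (K := (1 + N * (N : ℝ) ^ 2) * ‖x‖ ^ 2)
    (by intro t; split_ifs; exacts [sq_nonneg _, le_refl _])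
    (by
      intro F
      rw [← Finset.sum_filter]
      exact coef_sq_le x N _ fun t ht => (Finset.mem_filter.mp ht).2)
    (ε := (ε / 2) ^ 2) (by positivity)
  obtain ⟨A, hA, hBA⟩ := exists_low (B ∪ F0)
  refine ⟨A, hA, Finset.subset_union_left.trans hBA, fun h hh => ?_⟩
  have hsplit : x h = x (res (HN N) h) + x (res (HN N)ᶜ h) := by
    rw [← map_add, res_add_res_compl]
  have h1 : |x (res (HN N)ᶜ h)| ≤ ε / 2 * ‖h‖ := by
    refine (hN _ fun t ht => ?_).trans ?_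
    · exact res_apply_not_mem _ (by simpa using ht)
    · exact mul_le_mul_of_nonneg_left (res_norm_le (low_HN_compl N) h) (by positivity)
  have h2 : |x (res (HN N) h)| ≤ ε / 2 * ‖h‖ := by
    obtain ⟨F, hF⟩ := exists_supp (res (HN N) h)
    obtain ⟨F', hF'⟩ : ∃ F', F' = F.filter (fun t => t ∉ A ∧ t.1 < N) := ⟨_, rfl⟩
    have hz : ∀ t, t ∉ F' → res (HN N) h t = 0 := by
      intro t ht
      by_cases htF : t ∈ F
      · by_cases htA : t ∈ A
        · rw [res_apply, hh t htA, ite_self]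
        · refine res_apply_not_mem _ fun hx => ht ?_
          rw [hF', Finset.mem_filter]
          exact ⟨htF, htA, hx⟩
      · exact hF t htF
    have e := eq_fs _ F' hz
    have e2 : x (res (HN N) h) = ∑ t ∈ F', res (HN N) h t * x (sgl t 1) := by
      conv_lhs => rw [e]
      exact map_fs x F' _
    rw [e2]
    have h3 : ∑ t ∈ F', (res (HN N) h t) ^ 2 ≤ ‖h‖ ^ 2 := by
      refine (sum_sq_le _ F').trans ?_
      exact pow_le_pow_left₀ (norm_nonneg _) (res_norm_le (low_HN N) h) 2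
    have h4 : ∑ t ∈ F', (x (sgl t 1)) ^ 2 ≤ (ε / 2) ^ 2 := by
      have h5 := hF0 F' (by
        rw [Finset.disjoint_left]
        intro t ht htF
        rw [hF', Finset.mem_filter] at ht
        exact ht.2.1 (hBA (Finset.mem_union_right _ htF)))
      refine le_trans (le_of_eq ?_) h5
      refine Finset.sum_congr rfl fun t ht => ?_
      rw [hF', Finset.mem_filter] at ht
      rw [if_pos ht.2.2]
    have := abs_sum_mul_le F' _ _ (norm_nonneg h) (by positivity : (0 : ℝ) ≤ ε / 2) h3 h4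
    linarith
  rw [hsplit]
  have := abs_add_le (x (res (HN N) h)) (x (res (HN N)ᶜ h))
  linarith

end MidTree
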